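import Vale.Agent.P073.Mon

/-! Local modification which makes the field strongly monotone near one point. -/

open MeasureTheory Set Filter Metric
open scoped ContDiff Topology ENNReal RealInnerProductSpace

namespace Vale.Agent.P073

variable {n : ℕ} {Ω : Set (E n)} {f : E n → E n} {x₀ : E n}

/-- local data at a point -/
def Loc (f : E n → E n) (x₀ : E n) : Prop :=
  ∃ R > 0, ∃ (u : E n → ℝ) (G : E n → E n),
    (∀ y ∈ ball x₀ R, HasFDerivAt u (innerSL ℝ (G y)) y) ∧ ContinuousOn G (ball x₀ R) ∧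
    (∀ y ∈ ball x₀ R, ∀ z ∈ ball x₀ R, u y + ⟪G y, z - y⟫ ≤ u z) ∧
    (∀ z ∈ ball x₀ R, z ≠ x₀ → u x₀ + ⟪G x₀, z - x₀⟫ < u z) ∧
    Mon 0 (fun y => f y - G y) (ball x₀ R)

theorem mon_of_ineq {s : Set (E n)} {u a : E n → ℝ} {G : E n → E n} {c : ℝ}
    (h : ∀ y ∈ s, ∀ z ∈ s, u y + ⟪G y, z - y⟫ + a y * ‖z - y‖ ^ 2 ≤ u z)
    (ha : ∀ y ∈ s, c / 2 ≤ a y) : Mon c G s := fun x hx y hy => by
  have h1 := h x hx y hy
  have h2 := h y hy x hx
  rw [← neg_sub x y, inner_neg_right, norm_neg] at h1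
  rw [inner_sub_left]
  nlinarith [mul_le_mul_of_nonneg_right (ha x hx) (sq_nonneg ‖x - y‖),
    mul_le_mul_of_nonneg_right (ha y hy) (sq_nonneg ‖x - y‖)]

theorem Mon.add {s : Set (E n)} {G G' : E n → E n} {c c' : ℝ} (h : Mon c G s) (h' : Mon c' G' s) :
    Mon (c + c') (fun y => G y + G' y) s := fun x hx y hy => by
  rw [add_sub_add_comm, inner_add_left, add_mul]
  exact add_le_add (h x hx y hy) (h' x hx y hy)

theorem Loc.mon (h : Loc f x₀) : ∃ t ∈ 𝓝 x₀, Mon 0 f t := by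
  obtain ⟨R, hR, u, G, -, -, h3, -, h5⟩ := h
  have h6 : Mon 0 G (ball x₀ R) := mon_of_ineq (u := u) (a := fun _ => 0)
    (fun y hy z hz => by rw [zero_mul, add_zero]; exact h3 y hy z hz) fun _ _ => by norm_num
  exact ⟨_, ball_mem_nhds x₀ hR,
    ((h5.add h6).anti (add_zero 0).ge).congr fun y _ => (sub_add_cancel _ _).symm⟩

/-- square of the positive part -/
noncomputable def pp (x : ℝ) : ℝ := max x 0 ^ 2 / 2

theorem pp_le (a b : ℝ) : pp a + max a 0 * (b - a) ≤ pp b := by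
  unfold pp
  rcases le_total a 0 with h | h <;> rcases le_total b 0 with h' | h' <;>
    simp only [h, h', max_eq_left, max_eq_right] <;> nlinarith [sq_nonneg (a - b), sq_nonneg b]

theorem pp_ge (a b : ℝ) : pp b ≤ pp a + max a 0 * (b - a) + (b - a) ^ 2 / 2 := by
  unfold pp
  rcases le_total a 0 with h | h <;> rcases le_total b 0 with h' | h' <;>
    simp only [h, h', max_eq_left, max_eq_right] <;> nlinarith [sq_nonneg (a - b), sq_nonneg b]

theorem pp_deriv (a : ℝ) : HasDerivAt pp (max a 0) a := by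
  rw [hasDerivAt_iff_isLittleO]
  refine Asymptotics.IsBigO.trans_isLittleO (Asymptotics.IsBigO.of_bound' (.of_forall fun b => ?_))
    (Asymptotics.isLittleO_pow_sub_sub a one_lt_two)
  rw [norm_pow, norm_norm, Real.norm_eq_abs, Real.norm_eq_abs, sq_abs, smul_eq_mul, abs_le]
  constructor <;> nlinarith [pp_le a b, pp_ge a b, sq_nonneg (b - a)]

theorem bump (hΩ : IsOpen Ω) (hf : ∀ z ∈ Ω, Loc f z) (hx : x₀ ∈ Ω) :
    ∃ (w : E n → ℝ) (h : E n → E n) (K : Set (E n)) (C : ℝ), IsCompact K ∧ K ⊆ Ω ∧ 0 ≤ C ∧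
      (∀ y, HasFDerivAt w (innerSL ℝ (h y)) y) ∧ Continuous h ∧ (∀ y ∉ K, w y = 0 ∧ h y = 0) ∧
      (∀ z ∈ Ω, ∃ t ∈ 𝓝 z, Mon 0 (fun y => f y + h y) t) ∧
      (∃ μ > 0, ∃ t ∈ 𝓝 x₀, Mon μ (fun y => f y + h y) t) ∧
      Mon 0 (fun y => C • y - h y) univ := by
  obtain ⟨R, hR, u, G, h1, h2, h3, h4, h5⟩ := hf x₀ hx
  obtain ⟨ρ, hρ, hB⟩ := nhds_basis_closedBall.mem_iff.1
    (inter_mem (ball_mem_nhds x₀ hR) (hΩ.mem_nhds hx))
  have hB1 : closedBall x₀ ρ ⊆ ball x₀ R := hB.trans inter_subset_left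
  have huc : ContinuousOn u (closedBall x₀ ρ) := fun y hy =>
    (h1 y (hB1 hy)).continuousAt.continuousWithinAt
  obtain ⟨m, hm, hm'⟩ := ((isCompact_closedBall x₀ ρ).diff (isOpen_ball (x := x₀)
    (ε := ρ / 2))).exists_forall_le' (f := fun y => u y - u x₀ - ⟪G x₀, y - x₀⟫) (a := 0)
    (((huc.mono diff_subset).sub continuousOn_const).sub (by fun_prop)) fun y hy => by
      have := h4 y (hB1 hy.1) fun e => hy.2 (e ▸ mem_ball_self (half_pos hρ))
      linarith
  obtain ⟨ε, hε, hεm⟩ : ∃ ε > 0, ε * ρ ^ 2 = m := ⟨m / ρ ^ 2, by positivity, by field_simp⟩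
  obtain ⟨S, hS⟩ : ∃ S : E n → ℝ, S = fun y =>
    u y - u x₀ - ⟪G x₀, y - x₀⟫ - ε / 2 * ‖y - x₀‖ ^ 2 := ⟨_, rfl⟩
  obtain ⟨dS, hdS⟩ : ∃ dS : E n → E n, dS = fun y => G y - G x₀ - ε • (y - x₀) := ⟨_, rfl⟩
  have s1 : ∀ y ∈ closedBall x₀ ρ, HasFDerivAt S (innerSL ℝ (dS y)) y := fun y hy => by
    have k1 := ((hasFDerivAt_id (𝕜 := ℝ) y).sub_const x₀)
    have k2 := ((((h1 y (hB1 hy)).sub_const (u x₀)).fun_sub
      ((innerSL ℝ (G x₀)).hasFDerivAt.comp y k1)).fun_sub (k1.norm_sq.const_mul (ε / 2)))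
    rw [hS, hdS]
    refine k2.congr_fderiv (ContinuousLinearMap.ext fun v => ?_)
    simp [inner_sub_left, real_inner_smul_left]
    ring
  have s2 : ∀ y ∈ closedBall x₀ ρ, ε / 2 * ‖y - x₀‖ ^ 2 ≤ m / 2 := fun y hy => by
    have := pow_le_pow_left₀ (norm_nonneg _) (mem_closedBall_iff_norm.1 hy) 2
    nlinarith
  have s3 : ∀ x y, S y - S x = ⟪dS x, y - x⟫ + (u y - u x - ⟪G x, y - x⟫) -
      ε / 2 * ‖y - x‖ ^ 2 := fun x y => by
    have k1 := norm_add_sq_real (x - x₀) (y - x)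
    rw [show x - x₀ + (y - x) = y - x₀ by abel] at k1
    have k2 : ⟪G x₀, y - x₀⟫ = ⟪G x₀, x - x₀⟫ + ⟪G x₀, y - x⟫ := by
      rw [← inner_add_right]; congr 1; abel
    simp only [hS, hdS, k1, k2, inner_sub_left (G x - G x₀), inner_sub_left (G x),
      real_inner_smul_left]
    ring
  have dc : ContinuousOn dS (closedBall x₀ ρ) := by
    rw [hdS]
    exact ((h2.mono hB1).sub continuousOn_const).sub (by fun_prop)
  obtain ⟨M, hM⟩ := (isCompact_closedBall x₀ ρ).exists_bound_of_continuousOn dc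
  have s4 : ∀ x ∈ closedBall x₀ ρ, ∀ y ∈ closedBall x₀ ρ, (S y - S x) ^ 2 ≤ M ^ 2 * ‖y - x‖ ^ 2 :=
    fun x hx y hy => by
      have k1 := (convex_closedBall x₀ ρ).norm_image_sub_le_of_norm_hasFDerivWithin_le
        (fun y hy => (s1 y hy).hasFDerivWithinAt)
        (fun y hy => (innerSL_apply_norm ℝ _).trans_le (hM y hy)) hx hy
      rw [← mul_pow, ← sq_abs]
      exact pow_le_pow_left₀ (abs_nonneg _) k1 2
  obtain ⟨a, ha⟩ : ∃ a : E n → ℝ, a = fun y => max (m / 2 - S y) 0 / m := ⟨_, rfl⟩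
  have a0 : ∀ y, 0 ≤ a y := fun y => ha ▸ div_nonneg (le_max_right _ _) hm.le
  have a1 : ∀ y ∈ closedBall x₀ ρ, a y ≤ 1 := fun y hy => by
    have k1 := h3 x₀ (mem_ball_self hR) y (hB1 hy)
    have k2 := s2 y hy
    rw [ha, hS]
    exact (div_le_one hm).2 (max_le (by linarith) hm.le)
  have am : ∀ y, max (m / 2 - S y) 0 = m * a y := fun y => by rw [ha]; field_simp
  have ac : ∀ y ∈ closedBall x₀ ρ, ContinuousAt a y := fun y hy => by
    have := (s1 y hy).continuousAt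
    rw [ha]
    fun_prop
  obtain ⟨w, hw⟩ : ∃ w : E n → ℝ, w = (ball x₀ ρ).indicator fun y => pp (m / 2 - S y) / m :=
    ⟨_, rfl⟩
  obtain ⟨h, hh⟩ : ∃ h : E n → E n, h = (ball x₀ ρ).indicator fun y => -a y • dS y := ⟨_, rfl⟩
  have w1 : ∀ y ∈ ball x₀ ρ, w y = pp (m / 2 - S y) / m ∧ h y = -a y • dS y := fun y hy => by
    rw [hw, hh, indicator_of_mem hy, indicator_of_mem hy]
    exact ⟨rfl, rfl⟩
  have w0 : ∀ y ∉ closedBall x₀ (ρ / 2), w y = 0 ∧ h y = 0 := fun y hy => by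
    by_cases k : y ∈ ball x₀ ρ
    · have k1 := hm' y ⟨ball_subset_closedBall k, fun e => hy (ball_subset_closedBall e)⟩
      have k2 := s2 y (ball_subset_closedBall k)
      have k3 : max (m / 2 - S y) 0 = 0 := max_eq_right (by rw [hS]; linarith)
      rw [(w1 y k).1, (w1 y k).2, ha, pp]
      simp [k3]
    · rw [hw, hh, indicator_of_notMem k, indicator_of_notMem k]
      exact ⟨rfl, rfl⟩
  have cs : ∀ y, ball x₀ ρ ∈ 𝓝 y ∨ (closedBall x₀ (ρ / 2))ᶜ ∈ 𝓝 y := fun y => by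
    by_cases k : y ∈ ball x₀ ρ
    · exact Or.inl (isOpen_ball.mem_nhds k)
    · exact Or.inr (isClosed_closedBall.isOpen_compl.mem_nhds fun e =>
        k (closedBall_subset_ball (half_lt_self hρ) e))
  have hc : Continuous h := continuous_iff_continuousAt.2 fun y => by
    rcases cs y with k | k
    · have k1 := ball_subset_closedBall (mem_of_mem_nhds k)
      refine ((ac y k1).neg.smul (dc.continuousAt (mem_of_superset k ball_subset_closedBall))).congr
        (mem_of_superset k fun z hz => (w1 z hz).2.symm)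
    · exact continuousAt_const.congr (mem_of_superset k fun z hz => (w0 z hz).2.symm)
  have lo : ∀ y ∈ ball x₀ ρ, ∀ z ∈ ball x₀ ρ, u y + w y + ⟪G y + h y, z - y⟫ +
      a y * ε / 2 * ‖z - y‖ ^ 2 ≤ u z + w z := fun y hy z hz => by
    have k1 := pp_le (m / 2 - S y) (m / 2 - S z)
    have k2 := h3 y (hB1 (ball_subset_closedBall hy)) z (hB1 (ball_subset_closedBall hz))
    have k3 := a1 y (ball_subset_closedBall hy)
    have k4 : pp (m / 2 - S y) / m - a y * (S z - S y) ≤ pp (m / 2 - S z) / m := by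
      rw [le_div_iff₀ hm, sub_mul, div_mul_cancel₀ _ hm.ne']
      rw [am] at k1
      linarith
    rw [(w1 y hy).1, (w1 y hy).2, (w1 z hz).1, inner_add_left, real_inner_smul_left]
    rw [s3] at k4
    nlinarith [mul_nonneg (sub_nonneg.2 k3) (sub_nonneg.2 k2)]
  have hi : ∀ c, ∀ t ⊆ ball x₀ ρ, (∀ y ∈ t, c / 2 ≤ a y * ε / 2) →
      Mon c (fun y => f y + h y) t := fun c t ht hc => by
    have := (h5.mono (ht.trans (ball_subset_closedBall.trans hB1))).add
      (mon_of_ineq (u := fun y => u y + w y) (G := fun y => G y + h y)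
        (fun y hy z hz => lo y (ht hy) z (ht hz)) hc)
    exact (this.anti (zero_add c).ge).congr fun y _ => by abel
  refine ⟨w, h, closedBall x₀ (ρ / 2), ε + M ^ 2 / m, isCompact_closedBall _ _,
    (closedBall_subset_closedBall (half_le_self hρ.le)).trans (hB.trans inter_subset_right),
    by positivity, fun y => ?_, hc, w0, fun z hz => ?_, ⟨ε / 4, by positivity, ?_⟩,
    mon_of_loc convex_univ (by fun_prop) fun z _ => ?_⟩
  · rcases cs y with k | k
    · have k1 := mem_of_mem_nhds k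
      have k2 := ((pp_deriv (m / 2 - S y)).comp_hasFDerivAt y
        ((s1 y (ball_subset_closedBall k1)).const_sub (m / 2))).mul_const m⁻¹
      refine (k2.congr_of_eventuallyEq
        (mem_of_superset k fun z hz => (w1 z hz).1.trans (div_eq_mul_inv _ _))).congr_fderiv
        (ContinuousLinearMap.ext fun v => ?_)
      simp [(w1 y k1).2, am, real_inner_smul_left]
      field_simp
    · rw [(w0 y (mem_of_mem_nhds k)).2, map_zero]
      exact (hasFDerivAt_const (0 : ℝ) y).congr_of_eventuallyEq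
        (mem_of_superset k fun z hz => (w0 z hz).1)
  · rcases cs z with k | k
    · exact ⟨_, k, hi 0 _ subset_rfl fun y _ => by
        have := mul_nonneg (a0 y) hε.le
        linarith⟩
    · obtain ⟨t, k1, k2⟩ := (hf z hz).mon
      exact ⟨_, inter_mem k k1, (k2.mono inter_subset_right).congr fun y hy => by
        rw [(w0 y hy.1).2, add_zero]⟩
  · have k1 : a x₀ = 1 / 2 := by
      rw [ha, hS]
      simp [max_eq_left (half_pos hm).le]
      field_simp
    have k2 := (ac x₀ (mem_closedBall_self hρ.le)).eventually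
      (lt_mem_nhds (show 1 / 4 < a x₀ by rw [k1]; norm_num))
    exact ⟨_, inter_mem (ball_mem_nhds x₀ hρ) k2, hi _ _ inter_subset_left fun y hy => by
      have : 1 / 4 < a y := hy.2
      nlinarith⟩
  · rcases cs z with k | k
    · refine ⟨_, k, mon_of_ineq (u := fun y => (ε + M ^ 2 / m) / 2 * ‖y‖ ^ 2 - w y)
        (a := fun _ => 0) (fun y hy z hz => ?_) (by simp)⟩
      have k1 := pp_ge (m / 2 - S y) (m / 2 - S z)
      have k2 := h3 y (hB1 (ball_subset_closedBall hy)) z (hB1 (ball_subset_closedBall hz))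
      have k3 := a1 y (ball_subset_closedBall hy)
      have k5 := s4 y (ball_subset_closedBall hy) z (ball_subset_closedBall hz)
      have k4 : pp (m / 2 - S z) / m ≤ pp (m / 2 - S y) / m - a y * (S z - S y) +
          M ^ 2 / m / 2 * ‖z - y‖ ^ 2 := by
        rw [div_le_iff₀ hm, add_mul, sub_mul, div_mul_cancel₀ _ hm.ne',
          show M ^ 2 / m / 2 * ‖z - y‖ ^ 2 * m = M ^ 2 * ‖z - y‖ ^ 2 / 2 by field_simp]
        rw [am] at k1
        nlinarith
      have k6 := norm_add_sq_real y (z - y)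
      rw [add_sub_cancel] at k6
      rw [(w1 y hy).1, (w1 y hy).2, (w1 z hz).1, inner_sub_left, real_inner_smul_left,
        real_inner_smul_left, k6]
      rw [s3] at k4
      nlinarith [mul_nonneg (a0 y) (sub_nonneg.2 k2),
        mul_nonneg (mul_nonneg (sub_nonneg.2 k3) hε.le) (sq_nonneg ‖z - y‖)]
    · refine ⟨_, k, fun x hx y hy => ?_⟩
      simp only [(w0 x hx).2, (w0 y hy).2, sub_zero, ← smul_sub, real_inner_smul_left,
        real_inner_self_eq_norm_sq, zero_mul]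
      positivity

end Vale.Agent.P073
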