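import Vale.Agent.P073.Main

/-! From convex potentials to the local data. -/

open MeasureTheory Set Filter Metric
open scoped ContDiff Topology ENNReal RealInnerProductSpace

namespace Vale.Agent.P073

variable {n : ℕ} {s : Set (E n)} {u : E n → ℝ} {f G : E n → E n} {x y z a : E n} {r : ℝ}

theorem grad_fderiv (h : HasGradientAt u a y) : HasFDerivAt u (innerSL ℝ a) y :=
  (hasGradientAt_iff_hasFDerivAt.1 h).congr_fderiv (by ext v; simp)

theorem conv_ineq (hu : ConvexOn ℝ s u) (hy : y ∈ s) (hz : z ∈ s)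
    (hd : HasFDerivAt u (innerSL ℝ a) y) : u y + ⟪a, z - y⟫ ≤ u z := by
  have hγ : HasDerivAt (fun t : ℝ => y + t • (z - y)) (z - y) 0 := by
    simpa using ((hasDerivAt_id (0 : ℝ)).smul_const (z - y)).const_add y
  have h2 : HasFDerivAt u (innerSL ℝ a) (y + (0 : ℝ) • (z - y)) := by simpa using hd
  have h0 := h2.comp_hasDerivAt (0 : ℝ) hγ
  have h1 : HasDerivAt (fun t : ℝ => u (y + t • (z - y))) ⟪a, z - y⟫ 0 := h0
  rw [← le_sub_iff_add_le']
  refine le_of_tendsto h1.tendsto_slope_zero_right ?_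
  filter_upwards [Ioo_mem_nhdsGT zero_lt_one] with t ht
  have h3 := hu.2 hy hz (sub_pos.2 ht.2).le ht.1.le (sub_add_cancel 1 t)
  rw [show (1 - t) • y + t • z = y + t • (z - y) by module] at h3
  simp only [zero_add, zero_smul, add_zero, smul_eq_mul] at h3 ⊢
  rw [inv_mul_le_iff₀ ht.1]
  linarith

theorem loc_of_strict (hr : 0 < r) (hu : StrictConvexOn ℝ (ball x r) u)
    (h1 : ContDiffOn ℝ 1 u (ball x r)) (hm : ∀ y ∈ ball x r, ∀ z ∈ ball x r,
      ⟪gradient u y - gradient u z, y - z⟫ ≤ ⟪f y - f z, y - z⟫) : Loc f x := by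
  have hd : ∀ y ∈ ball x r, HasFDerivAt u (innerSL ℝ (gradient u y)) y := fun y hy =>
    grad_fderiv ((h1.contDiffAt (isOpen_ball.mem_nhds hy)).differentiableAt one_ne_zero).hasGradientAt
  refine ⟨r, hr, u, gradient u, hd, (InnerProductSpace.toDual ℝ (E n)).symm.continuous.comp_continuousOn
    (h1.continuousOn_fderiv_of_isOpen isOpen_ball le_rfl),
    fun y hy z hz => conv_ineq hu.convexOn hy hz (hd y hy), fun z hz hne => ?_,
    fun y hy z hz => ?_⟩
  · have hx := mem_ball_self (x := x) hr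
    have k1 := hu.2 hx hz hne.symm one_half_pos one_half_pos (add_halves 1)
    have k2 := conv_ineq hu.convexOn hx (hu.1 hx hz one_half_pos.le one_half_pos.le (add_halves 1))
      (hd x hx)
    rw [show (1 / 2 : ℝ) • x + (1 / 2 : ℝ) • z - x = (1 / 2 : ℝ) • (z - x) by module,
      real_inner_smul_right] at k2
    simp only [smul_eq_mul] at k1
    linarith
  · rw [sub_sub_sub_comm, inner_sub_left, zero_mul]
    exact sub_nonneg.2 (hm y hy z hz)

theorem loc_of_grad (hr : 0 < r) (hu : ConvexOn ℝ (ball x r) u)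
    (h1 : ∀ y ∈ ball x r, HasGradientAt u (f y) y) (hc : ContinuousOn f (ball x r))
    (hi : InjOn f (ball x r)) : Loc f x := by
  have hd := fun y hy => grad_fderiv (h1 y hy)
  have hx := mem_ball_self (x := x) hr
  have k := fun y hy z hz => conv_ineq (z := z) hu hy hz (hd y hy)
  refine ⟨r, hr, u, f, hd, hc, k, fun z hz hne => (k x hx z hz).lt_of_ne fun e => hne ?_,
    fun y _ z _ => by simp⟩
  have k1 : IsLocalMin (fun y => u y - ⟪f x, y⟫) z :=
    mem_of_superset (isOpen_ball.mem_nhds hz) fun y hy => by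
      have k2 := k x hx y hy
      rw [inner_sub_right] at e k2
      show u z - ⟪f x, z⟫ ≤ u y - ⟪f x, y⟫
      linarith
  have k2 := k1.hasFDerivAt_eq_zero ((hd z hz).fun_sub (innerSL ℝ (f x)).hasFDerivAt)
  have k3 := DFunLike.congr_fun k2 (f z - f x)
  rw [← map_sub, innerSL_apply_apply, ContinuousLinearMap.zero_apply, inner_self_eq_zero,
    sub_eq_zero] at k3
  exact hi hz hx k3

end Vale.Agent.P073
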