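import Vale.Agent.P073.Mon

/-! Mollification. -/

open MeasureTheory Set Filter Metric
open scoped ContDiff Topology ENNReal RealInnerProductSpace Convolution

namespace Vale.Agent.P073

variable {n : ℕ} {F : Type} [NormedAddCommGroup F] [NormedSpace ℝ F] [CompleteSpace F]
  {u : E n → F} {G G' : E n → E n} {Ω : Set (E n)} {p : ℝ}

/-- mollification -/
noncomputable def mol (φ : ContDiffBump (0 : E n)) (u : E n → F) : E n → F :=
  φ.normed volume ⋆[ContinuousLinearMap.lsmul ℝ ℝ, volume] u

variable (φ : ContDiffBump (0 : E n))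

omit [CompleteSpace F] in
theorem mol_eq (u : E n → F) (x : E n) : mol φ u x = ∫ t, φ.normed volume t • u (x - t) := rfl

omit [CompleteSpace F] in
theorem mol_smooth (hu : LocallyIntegrable u) : ContDiff ℝ ∞ (mol φ u) :=
  φ.hasCompactSupport_normed.contDiff_convolution_left _ φ.contDiff_normed hu

omit [CompleteSpace F] in
theorem mol_int (hu : LocallyIntegrable u) (x : E n) :
    Integrable fun t => φ.normed volume t • u (x - t) :=
  φ.hasCompactSupport_normed.convolutionExists_left (ContinuousLinearMap.lsmul ℝ ℝ)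
    φ.continuous_normed hu x

theorem mol_supp {t : E n} (ht : φ.normed volume t ≠ 0) : ‖t‖ < φ.rOut :=
  mem_ball_zero_iff.1 (φ.support_normed_eq.subset ht)

theorem mol_mon (h1 : LocallyIntegrable G) (h2 : LocallyIntegrable G') {a b c s : ℝ} {z : E n}
    (h : Mon c (fun y => a • G y + b • G' y) (ball z s)) (hs : φ.rOut < s) (v : E n) :
    c * ‖v‖ ^ 2 ≤ a * ⟪fderiv ℝ (mol φ G) z v, v⟫ + b * ⟪fderiv ℝ (mol φ G') z v, v⟫ := by
  have h3 : LocallyIntegrable fun y => a • G y + b • G' y := (h1.smul a).add (h2.smul b)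
  have e : ∀ x, a • mol φ G x + b • mol φ G' x = mol φ (fun y => a • G y + b • G' y) x := fun x => by
    rw [mol_eq, mol_eq, mol_eq, ← integral_smul, ← integral_smul]
    refine (integral_add ((mol_int φ h1 x).smul a) ((mol_int φ h2 x).smul b)).symm.trans ?_
    exact integral_congr_ae (.of_forall fun t => by
      simp only [Pi.smul_apply, smul_add, smul_comm a, smul_comm b])
  have k : Mon c (fun x => a • mol φ G x + b • mol φ G' x) (ball z (s - φ.rOut)) := by
    intro x hx y hy
    have i := (mol_int φ h3 x).sub' (mol_int φ h3 y)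
    simp only [e]
    rw [mol_eq, mol_eq, ← integral_sub (mol_int φ h3 x) (mol_int φ h3 y), real_inner_comm,
      ← integral_inner i, ← one_mul (c * _), ← φ.integral_normed (μ := volume), ← integral_mul_const]
    refine integral_mono (φ.integrable_normed.mul_const _) (i.const_inner _) fun t => ?_
    simp only [← smul_sub, real_inner_smul_right]
    by_cases ht : φ.normed volume t = 0
    · rw [ht, zero_mul, zero_mul]
    · have m : ∀ w ∈ ball z (s - φ.rOut), w - t ∈ ball z s := fun w hw => by
        have := norm_sub_le (w - z) t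
        rw [mem_ball_iff_norm] at hw ⊢
        rw [sub_right_comm]
        linarith [mol_supp φ ht]
      have := h _ (m x hx) _ (m y hy)
      rw [sub_sub_sub_cancel_right, real_inner_comm] at this
      exact mul_le_mul_of_nonneg_left this (φ.nonneg_normed t)
  have d := fun {G : E n → E n} (h : LocallyIntegrable G) =>
    ((mol_smooth φ h).differentiable (by simp) z).hasFDerivAt
  simpa [inner_add_left, real_inner_smul_left] using k.le_fderiv (ball_mem_nhds z (sub_pos.2 hs))
    (((d h1).fun_const_smul a).fun_add ((d h2).fun_const_smul b)) v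

theorem mol_symm {W : E n → ℝ} (hW : ∀ y, HasFDerivAt W (innerSL ℝ (G y)) y)
    (hc : HasCompactSupport W) (hG : Continuous G) (z v w : E n) :
    ⟪fderiv ℝ (mol φ G) z v, w⟫ = ⟪v, fderiv ℝ (mol φ G) z w⟫ := by
  have e : fderiv ℝ W = fun y => innerSL ℝ (G y) := funext fun y => (hW y).fderiv
  have c1 : Continuous (fderiv ℝ W) := e ▸ (innerSL ℝ).continuous.comp hG
  have h1 : ContDiff ℝ 1 W := contDiff_one_iff_fderiv.2 ⟨fun y => (hW y).differentiableAt, c1⟩
  have hl : LocallyIntegrable (φ.normed volume) := φ.integrable_normed.locallyIntegrable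
  have k : ∀ y, HasFDerivAt (mol φ W) (innerSL ℝ (mol φ G y)) y := fun y => by
    refine (hc.hasFDerivAt_convolution_right _ hl h1 y).congr_fderiv
      (ContinuousLinearMap.ext fun v => ?_)
    rw [convolution_precompR_apply _ hl (hc.fderiv ℝ) c1, innerSL_apply_apply, mol_eq,
      real_inner_comm, ← integral_inner (mol_int φ hG.locallyIntegrable y)]
    exact integral_congr_ae (.of_forall fun t => by
      simp [e, real_inner_smul_right, real_inner_comm])
  have k2 := (innerSL ℝ (E := E n)).hasFDerivAt.comp z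
    ((mol_smooth φ hG.locallyIntegrable).differentiable (by simp) z).hasFDerivAt
  rw [real_inner_comm _ v]
  exact second_derivative_symmetric k k2 v w

theorem loc_ind (hΩ : IsDomain Ω) (hp : 1 ≤ p) (h : MemLp u (ENNReal.ofReal p) (volume.restrict Ω)) :
    LocallyIntegrable (Ω.indicator u) :=
  ((memLp_indicator_iff_restrict hΩ.1.measurableSet).2 h).locallyIntegrable
    (ENNReal.one_le_ofReal.2 hp)

theorem mol_weak {D : E n → E n →L[ℝ] E n} (hΩ : IsDomain Ω) (hp : 1 ≤ p) (h : Sobolev Ω p G D)
    {z : E n} (hz : closedBall z φ.rOut ⊆ Ω) :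
    fderiv ℝ (mol φ (Ω.indicator G)) z = mol φ (Ω.indicator D) z := by
  have hc := φ.hasCompactSupport_normed (μ := volume)
  have hρ : ContDiff ℝ ∞ (φ.normed volume) := φ.contDiff_normed
  have h1 : ContDiff ℝ 1 (φ.normed volume) := φ.contDiff_normed
  have hl := loc_ind hΩ hp h.1
  refine ContinuousLinearMap.ext fun v => ?_
  have h2 := h.2.2 v (fun t => φ.normed volume (z - t)) (hρ.comp (contDiff_const.sub contDiff_id))
    (hc.comp_homeomorph (Homeomorph.subLeft z))
    ((closure_minimal (fun t ht => by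
      rw [mem_closedBall_iff_norm']
      exact (mol_supp φ ht).le) isClosed_closedBall).trans hz)
  have h3 : ∀ t, fderiv ℝ (fun t => φ.normed volume (z - t)) t v =
      -fderiv ℝ (φ.normed volume) (z - t) v := fun t => by
    have := ((h1.differentiable one_ne_zero (z - t)).hasFDerivAt.comp t
      ((hasFDerivAt_id t).const_sub z)).fderiv
    exact (DFunLike.congr_fun this v).trans (by simp)
  simp only [h3, neg_smul, integral_neg, neg_inj] at h2
  rw [mol_eq, ContinuousLinearMap.integral_apply (mol_int φ (loc_ind hΩ hp h.2.1) z),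
    ← integral_sub_left_eq_self _ volume z, mol, ← convolution_flip,
    (hc.hasFDerivAt_convolution_right _ hl h1 z).fderiv,
    convolution_precompR_apply _ hl (hc.fderiv ℝ) (h1.continuous_fderiv one_ne_zero)]
  rw [← integral_indicator hΩ.1.measurableSet, ← integral_indicator hΩ.1.measurableSet] at h2
  refine (integral_congr_ae (.of_forall fun t => ?_)).trans
    (h2.trans (integral_congr_ae (.of_forall fun t => ?_))) <;>
  by_cases ht : t ∈ Ω <;> simp [ht]

omit [CompleteSpace F] [NormedSpace ℝ F] in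
theorem lp_pow (hp : 1 ≤ p) (μ : Measure (E n)) (w : E n → F) :
    eLpNorm w (ENNReal.ofReal p) μ ^ p = ∫⁻ x, ‖w x‖ₑ ^ p ∂μ := by
  have h0 : 0 < p := zero_lt_one.trans_le hp
  rw [eLpNorm_eq_lintegral_rpow_enorm_toReal (ENNReal.ofReal_pos.2 h0).ne' ENNReal.ofReal_ne_top,
    ENNReal.toReal_ofReal h0.le, ← ENNReal.rpow_mul, one_div_mul_cancel h0.ne', ENNReal.rpow_one]

omit [CompleteSpace F] [NormedSpace ℝ F] in
theorem lp_trans (hp : 1 ≤ p) (hu : MemLp u (ENNReal.ofReal p) volume) {η : ℝ} (hη : 0 < η) :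
    ∀ᶠ y in 𝓝 (0 : E n),
      eLpNorm (fun x => u (x - y) - u x) (ENNReal.ofReal p) volume ≤ ENNReal.ofReal η := by
  haveI : Fact (1 ≤ ENNReal.ofReal p) := ⟨ENNReal.one_le_ofReal.2 hp⟩
  let T : C(E n × E n, E n) := ⟨fun p => p.2 - p.1, by fun_prop⟩
  have hm : ∀ y, MeasurePreserving (T.curry y) volume volume :=
    fun y => measurePreserving_sub_right volume y
  have hc := (Continuous.compMeasurePreservingLp (f := fun _ : E n => hu.toLp u) continuous_const
    T.curry.continuous hm ENNReal.ofReal_ne_top).tendsto 0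
  filter_upwards [hc (Metric.closedBall_mem_nhds _ hη)] with y hy
  rw [mem_preimage, Metric.mem_closedBall, dist_edist, Lp.edist_def] at hy
  have e : ∀ y, (Lp.compMeasurePreserving (T.curry y) (hm y) (hu.toLp u) : E n → F) =ᵐ[volume]
      fun x => u (x - y) := fun y => (Lp.coeFn_compMeasurePreserving _ _).trans
    ((hm y).quasiMeasurePreserving.ae_eq_comp hu.coeFn_toLp)
  rw [eLpNorm_congr_ae ((e y).sub (e 0))] at hy
  simp only [sub_zero] at hy
  exact (ENNReal.le_ofReal_iff_toReal_le
    ((hu.comp_measurePreserving (hm y)).sub hu).eLpNorm_ne_top hη.le).2 hy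

theorem mol_lp (hp : 1 ≤ p) (hu : MemLp u (ENNReal.ofReal p) volume) {η : ℝ} (hη : 0 < η)
    (h1 : η ≤ 1) : ∃ δ > 0, ∀ φ : ContDiffBump (0 : E n), φ.rOut ≤ δ →
      ∫⁻ x, ‖mol φ u x - u x‖ₑ ^ p ≤ ENNReal.ofReal η := by
  have h0 : 0 < p := zero_lt_one.trans_le hp
  obtain ⟨δ, hδ, h⟩ := Metric.mem_nhds_iff.1 (lp_trans hp hu hη)
  refine ⟨δ, hδ, fun φ hφ => ?_⟩
  have hi := φ.integrable_normed (μ := volume)
  have ha : Measurable fun y => ENNReal.ofReal (φ.normed volume y) :=
    φ.continuous_normed.measurable.ennreal_ofReal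
  have h2 : ∫⁻ y, ENNReal.ofReal (φ.normed volume y) = 1 := by
    rw [← ofReal_integral_eq_lintegral_ofReal hi (Eventually.of_forall φ.nonneg_normed),
      φ.integral_normed, ENNReal.ofReal_one]
  have hm : AEMeasurable (fun q : E n × E n => ENNReal.ofReal (φ.normed volume q.2) *
      ‖u (q.1 - q.2) - u q.1‖ₑ ^ p) (volume.prod volume) :=
    (ha.comp measurable_snd).aemeasurable.mul
      (((hu.1.comp_quasiMeasurePreserving (quasiMeasurePreserving_sub volume volume)).sub
        hu.1.comp_fst).enorm.pow_const _)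
  have hq : 0 ≤ 1 - 1 / p := sub_nonneg.2 ((div_le_one h0).2 hp)
  have pt : ∀ x, ‖mol φ u x - u x‖ₑ ^ p ≤
      ∫⁻ y, ENNReal.ofReal (φ.normed volume y) * ‖u (x - y) - u x‖ₑ ^ p := fun x => by
    have e : mol φ u x - u x = ∫ y, φ.normed volume y • (u (x - y) - u x) := by
      simp only [smul_sub]
      rw [integral_sub (mol_int φ (hu.locallyIntegrable (ENNReal.one_le_ofReal.2 hp)) x)
        (hi.smul_const _), integral_smul_const, φ.integral_normed, one_smul, mol_eq]
    have a1 := ENNReal.lintegral_mul_norm_pow_le (μ := volume) ha.aemeasurable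
      (ha.aemeasurable.mul (((hu.1.comp_quasiMeasurePreserving
        (quasiMeasurePreserving_sub_left volume x)).sub
          (aestronglyMeasurable_const (b := u x))).enorm.pow_const p))
      (p := 1 - 1 / p) (q := 1 / p) hq (by positivity) (sub_add_cancel _ _)
    rw [h2, ENNReal.one_rpow, one_mul] at a1
    have a2 : ‖∫ y, φ.normed volume y • (u (x - y) - u x)‖ₑ ≤
        (∫⁻ y, ENNReal.ofReal (φ.normed volume y) * ‖u (x - y) - u x‖ₑ ^ p) ^ (1 / p) := by
      refine (enorm_integral_le_lintegral_enorm _).trans (le_trans (le_of_eq ?_) a1)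
      refine lintegral_congr fun y => ?_
      rw [enorm_smul, Real.enorm_of_nonneg (φ.nonneg_normed y), Pi.mul_apply,
        ENNReal.mul_rpow_of_nonneg _ _ (by positivity), ← mul_assoc,
        ← ENNReal.rpow_add_of_nonneg _ _ hq (by positivity), ← ENNReal.rpow_mul, sub_add_cancel,
        mul_one_div_cancel h0.ne', ENNReal.rpow_one, ENNReal.rpow_one]
      rfl
    rw [e]
    refine (ENNReal.rpow_le_rpow a2 h0.le).trans (le_of_eq ?_)
    rw [← ENNReal.rpow_mul, one_div_mul_cancel h0.ne', ENNReal.rpow_one]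
  refine (lintegral_mono pt).trans ?_
  rw [lintegral_lintegral_swap hm]
  calc _ ≤ ∫⁻ y, ENNReal.ofReal (φ.normed volume y) * ENNReal.ofReal η :=
        lintegral_mono fun y => ?_
    _ = _ := by rw [lintegral_mul_const _ ha, h2, one_mul]
  rw [lintegral_const_mul' _ _ ENNReal.ofReal_ne_top, ← lp_pow hp volume fun x => u (x - y) - u x]
  by_cases hy : φ.normed volume y = 0
  · simp [hy]
  · refine mul_le_mul_right ((ENNReal.rpow_le_rpow
      (h (mem_ball_zero_iff.2 ((mol_supp φ hy).trans_le hφ))) h0.le).trans ?_) _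
    exact ENNReal.rpow_le_self_of_le_one (ENNReal.ofReal_le_one.2 h1) hp

end Vale.Agent.P073
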