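import Vale.Agent.P073.Sum
import Vale.Agent.P073.Moll

/-! Gluing the mollified maps. -/

open MeasureTheory Set Filter Metric
open scoped ContDiff Topology ENNReal RealInnerProductSpace Manifold

namespace Vale.Agent.P073

variable {n : ℕ} {Ω K : Set (E n)} {f H : E n → E n} {D : E n → E n →L[ℝ] E n} {p θ : ℝ}
  {η : E n → ℝ}

theorem exists_cut (hΩ : IsDomain Ω) : ∃ (K : ℕ → Set (E n)) (φ : ℕ → E n → ℝ),
    (∀ j, IsCompact (K j) ∧ K j ⊆ Ω ∧ ContDiff ℝ ∞ (φ j) ∧ (∀ x, 0 ≤ φ j x) ∧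
      ∀ x ∉ K j, φ j x = 0) ∧ ∀ x ∈ Ω, ∃ N, ∀ᶠ y in 𝓝 x,
        (∀ j ∉ Finset.range N, φ j y = 0) ∧ ∑ j ∈ Finset.range N, φ j y = 1 := by
  obtain ⟨K, hK⟩ : ∃ K : ℕ → Set (E n), K = fun j : ℕ => (thickening (1 / ((j : ℝ) + 1)) Ωᶜ)ᶜ :=
    ⟨_, rfl⟩
  have k1 : ∀ j, IsClosed (K j) := fun j => hK ▸ isOpen_thickening.isClosed_compl
  have k2 : ∀ j, K j ⊆ Ω := fun j =>
    hK ▸ compl_subset_comm.1 (self_subset_thickening Nat.one_div_pos_of_nat _)
  have k3 : Monotone K := fun i j hij =>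
    hK ▸ compl_subset_compl.2 (thickening_mono (Nat.one_div_le_one_div hij) _)
  have k4 : ∀ j : ℕ, ∃ χ : E n → ℝ, ContDiff ℝ ∞ χ ∧ (∀ x ∉ K (j + 1), χ x = 0) ∧
      (∀ x ∈ K j, χ x = 1) ∧ ∀ x, χ x ∈ Icc (0 : ℝ) 1 := fun j => by
    obtain ⟨χ, c1, c2, c3⟩ := exists_contMDiffMap_zero_one_of_isClosed (n := ⊤) 𝓘(ℝ, E n)
      (isClosed_cthickening (δ := 1 / (((j + 1 : ℕ) : ℝ) + 1)) (E := Ωᶜ)) (k1 j)
      (hK ▸ disjoint_compl_right_iff_subset.2 (cthickening_subset_thickening'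
        Nat.one_div_pos_of_nat (Nat.one_div_lt_one_div j.lt_succ_self) _))
    exact ⟨χ, χ.contMDiff.contDiff, fun x hx =>
      c1 (thickening_subset_cthickening _ _ (by simpa [hK] using hx)), fun x hx => c2 hx, c3⟩
  choose χ c1 c2 c3 c4 using k4
  obtain ⟨ψ, p0, p1⟩ : ∃ ψ : ℕ → E n → ℝ, ψ 0 = (fun _ => 0) ∧ ∀ j, ψ (j + 1) = χ j :=
    ⟨fun j => Nat.casesOn j (fun _ => 0) χ, rfl, fun _ => rfl⟩
  have p2 : ∀ j x, 0 ≤ ψ j x ∧ ψ j x ≤ ψ (j + 1) x := fun j x => by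
    rcases j with _ | j
    · rw [p0, p1]
      exact ⟨le_rfl, (c4 0 x).1⟩
    · rw [p1, p1]
      refine ⟨(c4 j x).1, ?_⟩
      by_cases hx : x ∈ K (j + 1)
      · rw [c3 _ x hx]
        exact (c4 j x).2
      · rw [c2 j x hx]
        exact (c4 _ x).1
  have p3 : ∀ j, ContDiff ℝ ∞ (ψ j) := fun j => by
    rcases j with _ | j
    · exact p0 ▸ contDiff_const
    · exact p1 j ▸ c1 j
  refine ⟨fun j => K (j + 1), fun j x => ψ (j + 1) x - ψ j x, fun j =>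
    ⟨isCompact_of_isClosed_isBounded (k1 _) (hΩ.2.2.subset (k2 _)), k2 _, (p3 _).sub (p3 _),
      fun x => sub_nonneg.2 (p2 j x).2, fun x hx => ?_⟩, fun x hx => ?_⟩
  · have := p2 j x
    rw [p1, c2 j x hx] at this
    simp only [p1, c2 j x hx]
    linarith
  · have h1 : x ∉ closure Ωᶜ := by rwa [hΩ.1.isClosed_compl.closure_eq, notMem_compl_iff]
    simp only [closure_eq_iInter_cthickening, mem_iInter, not_forall] at h1
    obtain ⟨δ, hδ, h1⟩ := h1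
    obtain ⟨N, hN⟩ := exists_nat_one_div_lt hδ
    refine ⟨N + 1, mem_of_superset (isClosed_cthickening.isOpen_compl.mem_nhds h1) fun y hy => ?_⟩
    have h2 : y ∈ K N := hK ▸ fun k => hy (thickening_subset_cthickening_of_le hN.le _ k)
    refine ⟨fun j hj => ?_, ?_⟩
    · obtain ⟨i, rfl⟩ := Nat.exists_eq_add_of_le' (Nat.one_le_of_lt (not_lt.1
        (mt Finset.mem_range.2 hj)))
      have h3 : N ≤ i := by simpa using hj
      simp only [p1]
      rw [c3 _ y (k3 (h3.trans i.le_succ) h2), c3 _ y (k3 h3 h2), sub_self]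
    · simp only [Finset.sum_range_sub fun j => ψ j y]
      rw [p0, p1, c3 _ y h2, sub_zero]

theorem mol_close {u : E n → E n} (hΩ : IsOpen Ω) (hu : AEStronglyMeasurable u)
    (hc : ContinuousOn u Ω) (hK : IsCompact K) (hK' : K ⊆ Ω) {ε : ℝ} (hε : 0 < ε) :
    ∃ δ > 0, ∀ φ : ContDiffBump (0 : E n), φ.rOut ≤ δ → ∀ x ∈ K, ‖mol φ u x - u x‖ ≤ ε := by
  obtain ⟨m, h1, h2⟩ := exists_adm (Ω := Ω) (fun x a => ∀ y ∈ ball x a, dist (u y) (u x) ≤ ε)
    (fun x a b h _ hb y hy => h y (ball_subset_ball hb hy)) fun x hx => by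
      obtain ⟨r, hr, k⟩ := Metric.mem_nhds_iff.1 ((hc.continuousAt (hΩ.mem_nhds hx)).preimage_mem_nhds
        (closedBall_mem_nhds _ (half_pos hε)))
      refine ⟨r / 2, half_pos hr, mem_of_superset (ball_mem_nhds x (half_pos hr)) fun y hy z hz => ?_⟩
      have k1 : dist (u y) (u x) ≤ ε / 2 := k (ball_subset_ball (half_le_self hr.le) hy)
      have k2 : dist (u z) (u x) ≤ ε / 2 := k (by
        linarith [dist_triangle z y x, mem_ball.1 hy, mem_ball.1 hz] : dist z x < r)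
      linarith [dist_triangle_right (u z) (u y) (u x)]
  obtain ⟨δ, hδ, h3⟩ := h2 K hK hK'
  exact ⟨δ, hδ, fun φ hφ x hx => (dist_eq_norm _ _).symm.trans_le (φ.dist_normed_convolution_le hu
    fun y hy => h1 x (hK' hx) y (ball_subset_ball (hφ.trans (h3 x hx)) hy))⟩

theorem piece_bound {P S Q : E n →L[ℝ] E n} (hθ : 0 < θ) (h1 : θ ≤ 1)
    (hS : ∀ v w, ⟪S v, w⟫ = ⟪v, S w⟫)
    (s2 : ∀ v, 0 * ‖v‖ ^ 2 ≤ θ * ⟪P v, v⟫ + 1 * ⟪S v, v⟫)
    (s3 : ∀ v, -θ * ‖v‖ ^ 2 ≤ 0 * ⟪P v, v⟫ + -1 * ⟪S v, v⟫) :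
    ‖P + S - Q‖ ≤ 2 * ‖P - Q‖ + θ * (‖Q‖ + 1) := by
  have s4 := norm_le_of_symm hS (M := θ * (‖P‖ + 1)) (by positivity) fun v => by
    have k1 := (real_inner_le_norm _ v).trans (mul_le_mul_of_nonneg_right (P.le_opNorm v)
      (norm_nonneg v))
    have k2 := mul_le_mul_of_nonneg_left k1 hθ.le
    have k3 : 0 ≤ θ * ‖P‖ * ‖v‖ ^ 2 := by positivity
    have k4 : 0 ≤ θ * ‖v‖ ^ 2 := by positivity
    rw [abs_le]
    constructor <;> linarith [s2 v, s3 v]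
  have k1 := norm_add_le (P - Q) S
  have k2 := norm_add_le (P - Q) Q
  rw [sub_add_cancel] at k2
  rw [add_sub_right_comm]
  linarith [mul_le_mul_of_nonneg_left k2 hθ.le,
    mul_le_mul_of_nonneg_right h1 (norm_nonneg (P - Q))]

theorem exists_piece {W m : E n → ℝ} (hΩ : IsDomain Ω) (hp : 1 ≤ p) (hS : Sobolev Ω p f D)
    (hc : ContinuousOn f Ω) (hθ : 0 < θ) (h1 : θ ≤ 1)
    (w1 : ∀ y, HasFDerivAt W (innerSL ℝ (H y)) y) (w2 : HasCompactSupport W) (w3 : Continuous H)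
    (w4 : ∀ z r, ball z r ⊆ Ω → Mon 0 (fun y => θ • f y + H y) (ball z r))
    (w5 : Mon (-θ) (fun y => -H y) univ) (m1 : Adm Ω m)
    (m2 : ∀ z ∈ Ω, closedBall z (m z) ⊆ Ω ∧ Mon (m z) (fun y => f y + H y) (ball z (m z)))
    (hK : IsCompact K) (hK' : K ⊆ Ω) {ε γ : ℝ} (hε : 0 < ε) (hγ : 0 < γ) (hγ' : γ ≤ 1) :
    ∃ (G : E n → E n) (A : E n → E n →L[ℝ] E n), ContDiff ℝ ∞ G ∧ AEStronglyMeasurable A ∧
      ∫⁻ x, ‖A x‖ₑ ^ p ≤ ENNReal.ofReal γ ∧ ∀ x ∈ K, ‖G x - (f x + H x)‖ ≤ ε ∧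
        (∀ v, m x * ‖v‖ ^ 2 ≤ ⟪fderiv ℝ G x v, v⟫) ∧
        ‖fderiv ℝ G x - D x‖ ≤ 2 * ‖A x‖ + θ * (‖D x‖ + 1) := by
  have l1 := loc_ind hΩ hp hS.1
  have l2 := loc_ind hΩ hp hS.2.1
  have l3 : LocallyIntegrable H := w3.locallyIntegrable
  obtain ⟨δ₁, d1, e1⟩ := mol_close hΩ.1 l1.aestronglyMeasurable
    (hc.congr fun y hy => indicator_of_mem hy f) hK hK' (half_pos hε)
  obtain ⟨δ₂, d2, e2⟩ := mol_close hΩ.1 w3.aestronglyMeasurable w3.continuousOn hK hK' (half_pos hε)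
  obtain ⟨δ₃, d3, e3⟩ := mol_lp (F := E n →L[ℝ] E n) (u := Ω.indicator D) hp
    ((memLp_indicator_iff_restrict hΩ.1.measurableSet).2 hS.2.1) hγ hγ'
  obtain ⟨δ₄, d4, e4⟩ := m1 K hK hK'
  obtain ⟨φ, f1, f2, f3, f4⟩ : ∃ φ : ContDiffBump (0 : E n), φ.rOut ≤ δ₁ ∧ φ.rOut ≤ δ₂ ∧
      φ.rOut ≤ δ₃ ∧ φ.rOut < δ₄ := by
    have k := lt_min (lt_min d1 d2) (lt_min d3 (half_pos d4))
    exact ⟨⟨_, _, half_pos k, half_lt_self k⟩, (min_le_left _ _).trans (min_le_left _ _),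
      (min_le_left _ _).trans (min_le_right _ _), (min_le_right _ _).trans (min_le_left _ _),
      ((min_le_right _ _).trans (min_le_right _ _)).trans_lt (half_lt_self d4)⟩
  refine ⟨fun x => mol φ (Ω.indicator f) x + mol φ H x,
    fun x => mol φ (Ω.indicator D) x - Ω.indicator D x, (mol_smooth φ l1).add (mol_smooth φ l3),
    (mol_smooth φ l2).continuous.aestronglyMeasurable.sub l2.aestronglyMeasurable, e3 φ f3,
    fun x hx => ?_⟩
  have hx' := hK' hx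
  have r1 : φ.rOut < m x := f4.trans_le (e4 x hx)
  have r2 := ball_subset_closedBall.trans (m2 x hx').1
  have r3 := mol_weak φ hΩ hp hS ((closedBall_subset_closedBall r1.le).trans (m2 x hx').1)
  have r4 := fderiv_fun_add ((mol_smooth φ l1).differentiable (by simp) x)
    ((mol_smooth φ l3).differentiable (by simp) x)
  have s1 := mol_mon φ l1 l3 (a := 1) (b := 1) ((m2 x hx').2.congr fun y hy => by
    rw [indicator_of_mem (r2 hy), one_smul, one_smul]) r1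
  have s2 := mol_mon φ l1 l3 (a := θ) (b := 1) ((w4 x _ r2).congr fun y hy => by
    rw [indicator_of_mem (r2 hy), one_smul]) r1
  have s3 := mol_mon φ l1 l3 (a := 0) (b := -1) (z := x) ((w5.mono (subset_univ _)).congr
    fun y _ => by rw [zero_smul, zero_add, neg_one_smul]) r1
  rw [r3] at s1 s2 s3 r4
  beta_reduce
  refine ⟨?_, fun v => ?_, ?_⟩
  · have k1 := e1 φ f1 x hx
    rw [indicator_of_mem hx'] at k1
    rw [add_sub_add_comm]
    linarith [norm_add_le (mol φ (Ω.indicator f) x - f x) (mol φ H x - H x), e2 φ f2 x hx]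
  · rw [r4, ContinuousLinearMap.add_apply, inner_add_left]
    linarith [s1 v]
  · rw [r4, indicator_of_mem hx']
    exact piece_bound hθ h1 (mol_symm φ w1 w2 w3 x) s2 s3

theorem norm_comb {F : Type} [NormedAddCommGroup F] [NormedSpace ℝ F] {s : Finset ℕ} {w : ℕ → ℝ}
    {X : ℕ → F} {b : ℝ} (h0 : ∀ j, 0 ≤ w j) (h1 : ∑ j ∈ s, w j = 1)
    (h : ∀ j ∈ s, w j ≠ 0 → ‖X j‖ ≤ b) : ‖∑ j ∈ s, w j • X j‖ ≤ b := by
  refine (norm_sum_le _ _).trans ?_
  rw [← one_mul b, ← h1, Finset.sum_mul]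
  refine Finset.sum_le_sum fun j hj => ?_
  rw [norm_smul, Real.norm_of_nonneg (h0 j)]
  by_cases k : w j = 0
  · rw [k, zero_mul, zero_mul]
  · exact mul_le_mul_of_nonneg_left (h j hj k) (h0 j)

theorem exists_glue (hΩ : IsDomain Ω) (hp : 1 ≤ p) (hS : Sobolev Ω p f D) (hc : ContinuousOn f Ω)
    (hf : ∀ z ∈ Ω, Loc f z) (hη : Adm Ω η) (hθ : 0 < θ) (h1 : θ ≤ 1) :
    ∃ (g : E n → E n) (A : ℕ → E n → E n →L[ℝ] E n), ContDiffOn ℝ ∞ g Ω ∧
      (∀ j, AEStronglyMeasurable (A j) ∧ ∫⁻ x, ‖A j x‖ₑ ^ p ≤ ENNReal.ofReal (θ / 2 / 2 ^ j)) ∧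
      ∀ x ∈ Ω, ‖g x - f x‖ ≤ η x ∧ (∀ v, v ≠ 0 → 0 < ⟪fderiv ℝ g x v, v⟫) ∧
        ∃ j, ‖fderiv ℝ g x - D x‖ ≤ 2 * ‖A j x‖ + θ * (‖D x‖ + 2) := by
  obtain ⟨W, H, w1, w2, w3, w6, w4, w5, w7⟩ := exists_field (η := fun x => η x / 2) hΩ hf hc
    (fun K hK hK' => by
      obtain ⟨c, hc, h⟩ := hη K hK hK'
      exact ⟨c / 2, half_pos hc, fun x hx => by linarith [h x hx]⟩) hθ h1
  obtain ⟨m, m2, m1⟩ := exists_adm (Ω := Ω) (fun z s => (closedBall z s ⊆ Ω ∧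
      Mon s (fun y => f y + H y) (ball z s)) ∧ s ≤ θ ∧ 2 * s ≤ η z)
    (fun x a b h _ hb => ⟨⟨(closedBall_subset_closedBall hb).trans h.1.1,
      (h.1.2.anti hb).mono (ball_subset_ball hb)⟩, hb.trans h.2.1, by linarith [h.2.2]⟩)
    fun x hx => by
      obtain ⟨μ, hμ, t, ht, k⟩ := w7 x hx
      obtain ⟨r, hr, k1⟩ := nhds_basis_closedBall.mem_iff.1 (inter_mem (hΩ.1.mem_nhds hx) ht)
      obtain ⟨c, hc, k2⟩ := hη _ (isCompact_closedBall x r) (k1.trans inter_subset_left)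
      obtain ⟨a, a0, a1, a2, a3, a4⟩ : ∃ a > 0, a ≤ r / 2 ∧ a ≤ μ ∧ a ≤ θ ∧ a ≤ c / 2 :=
        ⟨_, lt_min (lt_min (half_pos hr) hμ) (lt_min hθ (half_pos hc)),
          (min_le_left _ _).trans (min_le_left _ _), (min_le_left _ _).trans (min_le_right _ _),
          (min_le_right _ _).trans (min_le_left _ _), (min_le_right _ _).trans (min_le_right _ _)⟩
      refine ⟨a, a0, mem_of_superset (closedBall_mem_nhds x (half_pos hr)) fun y hy => ?_⟩
      have k3 : closedBall y a ⊆ closedBall x r :=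
        closedBall_subset_closedBall' (by linarith [mem_closedBall.1 hy])
      exact ⟨⟨k3.trans (k1.trans inter_subset_left), (k.anti a2).mono
        (ball_subset_closedBall.trans (k3.trans (k1.trans inter_subset_right)))⟩, a3,
        by linarith [k2 y (k3 (mem_closedBall_self a0.le))]⟩
  obtain ⟨K, φ, c1, c2⟩ := exists_cut hΩ
  have key : ∀ j : ℕ, ∃ ε > 0, ∀ x ∈ K j, ε ≤ m x ∧
      ‖fderiv ℝ (φ j) x‖ * ε ≤ 1 / 2 / 2 / 2 ^ j * m x := fun j => by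
    obtain ⟨B, hB⟩ := (c1 j).1.exists_bound_of_continuousOn
      ((c1 j).2.2.1.continuous_fderiv (by simp)).continuousOn
    obtain ⟨c, hc, k⟩ := m1 _ (c1 j).1 (c1 j).2.1
    have k1 : 0 < 1 / 2 / 2 / 2 ^ j * c / (|B| + 1) := by positivity
    refine ⟨_, lt_min hc k1, fun x hx => ⟨(min_le_left _ _).trans (k x hx), ?_⟩⟩
    refine (mul_le_mul ((hB x hx).trans ((le_abs_self B).trans (lt_add_one _).le))
      (min_le_right _ _) (lt_min hc k1).le (by positivity)).trans ?_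
    rw [mul_div_cancel₀ _ (by positivity)]
    exact mul_le_mul_of_nonneg_left (k x hx) (by positivity)
  choose ε ε0 ε1 using key
  choose G A g1 g2 g3 g4 using fun j : ℕ => exists_piece hΩ hp hS hc hθ h1 w1 w2 w3 w4 w5 m1
    (fun z hz => (m2 z hz).1) (c1 j).1 (c1 j).2.1 (ε0 j) (γ := θ / 2 / 2 ^ j) (by positivity)
    ((div_le_self (half_pos hθ).le (one_le_pow₀ one_le_two)).trans ((half_le_self hθ.le).trans h1))
  have loc : ∀ x ∈ Ω, ∃ N, ∑ j ∈ Finset.range N, φ j x = 1 ∧ ∀ a : E n,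
      (fun y => ∑' j, φ j y • G j y) =ᶠ[𝓝 x]
        fun y => ∑ j ∈ Finset.range N, φ j y • (G j y - a) + a := fun x hx => by
    obtain ⟨N, hN⟩ := c2 x hx
    refine ⟨N, hN.self_of_nhds.2, fun a => hN.mono fun y hy => ?_⟩
    simp only [smul_sub, Finset.sum_sub_distrib, ← Finset.sum_smul, hy.2, one_smul, sub_add_cancel]
    exact tsum_eq_sum fun j hj => by rw [hy.1 j hj, zero_smul]
  refine ⟨fun y => ∑' j, φ j y • G j y, A, fun x hx => ?_, fun j => ⟨g2 j, g3 j⟩, fun x hx => ?_⟩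
  · obtain ⟨N, -, hN⟩ := loc x hx
    exact (((ContDiff.sum fun j _ => (c1 j).2.2.1.smul ((g1 j).sub contDiff_const)).add
      contDiff_const).contDiffAt.congr_of_eventuallyEq (hN 0)).contDiffWithinAt
  obtain ⟨N, hN, e⟩ := loc x hx
  have inK : ∀ j, φ j x ≠ 0 → x ∈ K j := fun j h => by_contra fun k => h ((c1 j).2.2.2.2 x k)
  have mx := m1.pos hx
  obtain ⟨R, hR, e1⟩ : ∃ R : E n →L[ℝ] E n, ‖R‖ ≤ m x / 2 ∧ fderiv ℝ (fun y => ∑' j, φ j y • G j y) x =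
      ∑ j ∈ Finset.range N, φ j x • fderiv ℝ (G j) x + R := by
    refine ⟨∑ j ∈ Finset.range N, (fderiv ℝ (φ j) x).smulRight (G j x - (f x + H x)), ?_, ?_⟩
    · refine (norm_sum_le _ _).trans ((Finset.sum_le_sum
        (g := fun j => 1 / 2 / 2 / 2 ^ j * m x) fun j _ => ?_).trans ?_)
      · rw [ContinuousLinearMap.norm_smulRight_apply]
        by_cases k : x ∈ K j
        · exact (mul_le_mul_of_nonneg_left (g4 j x k).1 (norm_nonneg _)).trans (ε1 j x k).2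
        · rw [Filter.EventuallyEq.fderiv_eq (f := fun _ => 0) (mem_of_superset
            ((c1 j).1.isClosed.isOpen_compl.mem_nhds k) (c1 j).2.2.2.2), fderiv_fun_const,
            Pi.zero_apply, norm_zero, zero_mul]
          positivity
      · exact (sum_le_hasSum _ (fun j _ => by positivity)
          ((hasSum_geometric_two' (1 / 2)).mul_right (m x))).trans_eq (by ring)
    · rw [(e (f x + H x)).fderiv_eq, ← Finset.sum_add_distrib]
      exact ((HasFDerivAt.fun_sum fun j _ => ((c1 j).2.2.1.differentiable (by simp) x).hasFDerivAt.fun_smul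
        (((g1 j).differentiable (by simp) x).hasFDerivAt.sub_const _)).add_const _).fderiv
  refine ⟨?_, fun v hv => ?_, ?_⟩
  · have k1 := norm_comb (X := fun j => G j x - (f x + H x)) (fun j => (c1 j).2.2.2.1 x) hN
      fun j _ h => (g4 j x (inK j h)).1.trans (ε1 j x (inK j h)).1
    rw [(e (f x + H x)).self_of_nhds, add_sub_assoc, add_sub_cancel_left]
    refine (norm_add_le _ _).trans ?_
    linarith [w6 x hx, (m2 x hx).2.2]
  · have k1 : m x * ‖v‖ ^ 2 ≤ ⟪(∑ j ∈ Finset.range N, φ j x • fderiv ℝ (G j) x) v, v⟫ := by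
      rw [ContinuousLinearMap.sum_apply, sum_inner, ← one_mul (m x * _), ← hN, Finset.sum_mul]
      refine Finset.sum_le_sum fun j _ => ?_
      rw [ContinuousLinearMap.smul_apply, real_inner_smul_left]
      by_cases k : φ j x = 0
      · rw [k, zero_mul, zero_mul]
      · exact mul_le_mul_of_nonneg_left ((g4 j x (inK j k)).2.1 v) ((c1 j).2.2.2.1 x)
    have k2 := (abs_real_inner_le_norm (R v) v).trans (mul_le_mul_of_nonneg_right
      ((R.le_opNorm v).trans (mul_le_mul_of_nonneg_right hR (norm_nonneg v))) (norm_nonneg v))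
    have k3 := mul_pos mx (pow_pos (norm_pos_iff.2 hv) 2)
    rw [e1, ContinuousLinearMap.add_apply, inner_add_left]
    nlinarith [neg_abs_le ⟪R v, v⟫]
  · obtain ⟨j, -, hj⟩ := (Finset.range N).exists_max_image (fun j => ‖A j x‖)
      (Finset.nonempty_of_sum_ne_zero (hN.trans_ne one_ne_zero))
    have k1 := norm_comb (X := fun j => fderiv ℝ (G j) x - D x)
      (b := 2 * ‖A j x‖ + θ * (‖D x‖ + 1)) (fun j => (c1 j).2.2.2.1 x) hN
      fun i hi h => (g4 i x (inK i h)).2.2.trans (by linarith [hj i hi])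
    simp only [smul_sub, Finset.sum_sub_distrib, ← Finset.sum_smul, hN, one_smul] at k1
    refine ⟨j, ?_⟩
    rw [e1, add_sub_right_comm]
    refine (norm_add_le _ _).trans ?_
    linarith [(m2 x hx).2.1]

end Vale.Agent.P073
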