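import Vale.Agent.P073.Conv

/-! Linear changes of the target. -/

open MeasureTheory Set Filter Metric
open scoped ContDiff Topology ENNReal RealInnerProductSpace

namespace Vale.Agent.P073

variable {n : ℕ} {Ω Λ : Set (E n)} {f : E n → E n} {D : E n → E n →L[ℝ] E n} {p : ℝ}
  (A : E n ≃L[ℝ] E n)

theorem IsDomain.lin (h : IsDomain Λ) : IsDomain (A '' Λ) :=
  ⟨A.isOpenMap _ h.1, h.2.1.image _ A.continuous.continuousOn,
    (A : E n →L[ℝ] E n).lipschitz.isBounded_image h.2.2⟩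

theorem inv_lin {h : E n → E n} (hi : InvOn h f Ω Λ) :
    InvOn (fun y => h (A.symm y)) (fun x => A (f x)) Ω (A '' Λ) :=
  ⟨fun x hx => by simpa using hi.1 hx, by
    rintro _ ⟨y, hy, rfl⟩
    simpa using hi.2 hy⟩

theorem maps_lin : MapsTo A.symm (A '' Λ) Λ := by
  rintro _ ⟨y, hy, rfl⟩
  simpa using hy

theorem Homeo.lin (h : Homeo Ω Λ f) : Homeo Ω (A '' Λ) fun x => A (f x) := by
  obtain ⟨h1, h2, k, h3, h4⟩ := h
  exact ⟨A.injective.injOn.bijOn_image.comp h1, A.continuous.comp_continuousOn h2, _, inv_lin A h3,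
    h4.comp A.symm.continuous.continuousOn (maps_lin A)⟩

theorem Diffeo.lin (h : Diffeo Ω Λ f) : Diffeo Ω (A '' Λ) fun x => A (f x) := by
  obtain ⟨h1, h2, k, h3, h4⟩ := h
  exact ⟨A.injective.injOn.bijOn_image.comp h1, A.contDiff.comp_contDiffOn h2, _, inv_lin A h3,
    h4.comp A.symm.contDiff.contDiffOn (maps_lin A)⟩

theorem Sobolev.lin (h : Sobolev Ω p f D) :
    Sobolev Ω p (fun x => A (f x)) fun x => (A : E n →L[ℝ] E n).comp (D x) := by
  refine ⟨(A : E n →L[ℝ] E n).comp_memLp' h.1,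
    (ContinuousLinearMap.compL ℝ (E n) (E n) (E n) A).comp_memLp' h.2.1, fun v φ h1 h2 h3 => ?_⟩
  have k := congrArg A (h.2.2 v φ h1 h2 h3)
  rw [map_neg, ← A.integral_comp_comm, ← A.integral_comp_comm] at k
  simpa using k

theorem Approximable.lin (hp : 0 ≤ p) (h : Approximable Ω Λ p f D) :
    Approximable Ω (A '' Λ) p (fun x => A (f x)) fun x => (A : E n →L[ℝ] E n).comp (D x) := by
  obtain ⟨g, h1, h2⟩ := h
  have e : ∀ j, fderiv ℝ (fun x => A (g j x)) = fun x => (A : E n →L[ℝ] E n).comp (fderiv ℝ (g j) x) :=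
    fun j => funext fun x => A.comp_fderiv
  have t : ‖(A : E n →L[ℝ] E n)‖ₑ ^ p ≠ ⊤ := ENNReal.rpow_ne_top_of_nonneg hp enorm_ne_top
  refine ⟨fun j x => A (g j x), fun j => ⟨(h1 j).1.lin A, e j ▸ (h1 j).2.lin A⟩,
    tendsto_of_tendsto_of_tendsto_of_le_of_le tendsto_const_nhds
      (by simpa using ENNReal.Tendsto.const_mul h2 (Or.inr t)) (fun _ => zero_le) fun j => ?_⟩
  rw [← lintegral_const_mul' _ _ t]
  refine lintegral_mono fun x => ?_
  simp only [e, err]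
  rw [mul_add, ← ENNReal.mul_rpow_of_nonneg _ _ hp, ← ENNReal.mul_rpow_of_nonneg _ _ hp, ← map_sub,
    ← ContinuousLinearMap.comp_sub]
  refine add_le_add (ENNReal.rpow_le_rpow ((A : E n →L[ℝ] E n).le_opENorm _) hp)
    (ENNReal.rpow_le_rpow ?_ hp)
  rw [← ofReal_norm, ← ofReal_norm, ← ofReal_norm, ← ENNReal.ofReal_mul (norm_nonneg _)]
  exact ENNReal.ofReal_le_ofReal (ContinuousLinearMap.opNorm_comp_le _ _)

theorem approx_lin (hΩ : IsDomain Ω) (hΛ : IsDomain Λ) (hp : 1 ≤ p) (hH : Homeo Ω Λ f)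
    (hS : Sobolev Ω p f D) (hf : ∀ z ∈ Ω, Loc (fun x => A (f x)) z) : Approximable Ω Λ p f D := by
  simpa [image_image, ← ContinuousLinearMap.comp_assoc] using
    (approx_of_loc hΩ (hΛ.lin A) hp (hH.lin A) (hS.lin A) hf).lin A.symm (zero_le_one.trans hp)

end Vale.Agent.P073
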