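import Vale.Agent.P073.Glue

/-! The approximation theorem. -/

open MeasureTheory Set Filter Metric
open scoped ContDiff Topology ENNReal RealInnerProductSpace

namespace Vale.Agent.P073

variable {n : ℕ} {Ω Λ : Set (E n)} {f g : E n → E n} {D : E n → E n →L[ℝ] E n} {p θ : ℝ}

theorem int_cut {ψ : E n → ℝ} (hΩ : IsOpen Ω) (h1 : Continuous ψ) (h2 : HasCompactSupport ψ)
    (h3 : tsupport ψ ⊆ Ω) (hg : ContinuousOn g Ω) : Integrable fun x => ψ x • g x :=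
  ((h1.continuousOn.smul hg).continuous_of_tsupport_subset hΩ
    ((tsupport_smul_subset_left ψ g).trans h3)).integrable_of_hasCompactSupport h2.smul_right

theorem weak_smooth (hΩ : IsOpen Ω) (hg : ContDiffOn ℝ ∞ g Ω) {φ : E n → ℝ} (h1 : ContDiff ℝ ∞ φ)
    (h2 : HasCompactSupport φ) (h3 : tsupport φ ⊆ Ω) (v : E n) :
    ∫ x in Ω, fderiv ℝ φ x v • g x = -∫ x in Ω, φ x • fderiv ℝ g x v := by
  have k1 := (tsupport_fderiv_apply_subset ℝ (f := φ) v).trans h3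
  rw [setIntegral_eq_integral_of_forall_compl_eq_zero fun x hx => by
      rw [image_eq_zero_of_notMem_tsupport (f := fun x => fderiv ℝ φ x v) fun k => hx (k1 k),
        zero_smul],
    setIntegral_eq_integral_of_forall_compl_eq_zero fun x hx => by
      rw [image_eq_zero_of_notMem_tsupport fun k => hx (h3 k), zero_smul],
    integral_smul_fderiv_eq_neg_fderiv_smul_of_integrable
      (int_cut hΩ ((h1.continuous_fderiv (by simp)).clm_apply continuous_const) (h2.fderiv_apply ℝ v)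
        k1 hg.continuousOn)
      (int_cut hΩ h1.continuous h2 h3
        ((hg.continuousOn_fderiv_of_isOpen hΩ (by simp)).clm_apply continuousOn_const))
      (int_cut hΩ h1.continuous h2 h3 hg.continuousOn) (fun x _ => h1.differentiable (by simp) x)
      (fun x hx => (hg.contDiffAt (hΩ.mem_nhds (h3 hx))).differentiableAt (by simp)), neg_neg]

theorem err_bound {X : E n → E n →L[ℝ] E n} {A : ℕ → E n → E n →L[ℝ] E n} (hΩ : IsOpen Ω)
    (hp : 1 ≤ p) (hθ : 0 < θ) (h1 : θ ≤ 1)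
    (hA : ∀ j, AEStronglyMeasurable (A j) ∧ ∫⁻ x, ‖A j x‖ₑ ^ p ≤ ENNReal.ofReal (θ / 2 / 2 ^ j))
    (h : ∀ x ∈ Ω, ∃ j, ‖X x‖ ≤ 2 * ‖A j x‖ + θ * (‖D x‖ + 2)) :
    ∫⁻ x in Ω, ‖X x‖ₑ ^ p ≤ ENNReal.ofReal θ *
      (2 ^ (p - 1) * (2 ^ p + ∫⁻ x in Ω, ‖‖D x‖ + 2‖ₑ ^ p)) := by
  have h0 : 0 ≤ p := zero_le_one.trans hp
  have m : ∀ j, AEMeasurable (fun x => ‖A j x‖ₑ ^ p) (volume.restrict Ω) := fun j =>
    ((hA j).1.enorm.pow_const p).restrict
  have t1 : (2 : ℝ≥0∞) ^ (p - 1) ≠ ⊤ :=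
    ENNReal.rpow_ne_top_of_nonneg (sub_nonneg.2 hp) ENNReal.ofNat_ne_top
  have t2 : (2 : ℝ≥0∞) ^ p ≠ ⊤ := ENNReal.rpow_ne_top_of_nonneg h0 ENNReal.ofNat_ne_top
  have k1 : ∫⁻ x in Ω, ∑' j, ‖A j x‖ₑ ^ p ≤ ENNReal.ofReal θ := by
    rw [lintegral_tsum m, ← (hasSum_geometric_two' θ).tsum_eq, ENNReal.ofReal_tsum_of_nonneg
      (fun j => by positivity) (hasSum_geometric_two' θ).summable]
    exact ENNReal.tsum_le_tsum fun j => (setLIntegral_le_lintegral _ _).trans (hA j).2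
  calc ∫⁻ x in Ω, ‖X x‖ₑ ^ p ≤ ∫⁻ x in Ω, 2 ^ (p - 1) * (2 ^ p * ∑' j, ‖A j x‖ₑ ^ p +
        ENNReal.ofReal θ * ‖‖D x‖ + 2‖ₑ ^ p) := setLIntegral_mono' hΩ.measurableSet fun x hx => by
        obtain ⟨j, hj⟩ := h x hx
        have k2 : ‖X x‖ₑ ≤ 2 * ‖A j x‖ₑ + ENNReal.ofReal θ * ‖‖D x‖ + 2‖ₑ := by
          have k3 := ENNReal.ofReal_le_ofReal hj
          rwa [ENNReal.ofReal_add (by positivity) (by positivity), ENNReal.ofReal_mul zero_le_two,
            ENNReal.ofReal_mul hθ.le, ofReal_norm_eq_enorm, ofReal_norm_eq_enorm,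
            ENNReal.ofReal_ofNat, ← Real.enorm_of_nonneg (r := ‖D x‖ + 2) (by positivity)] at k3
        refine ((ENNReal.rpow_le_rpow k2 h0).trans
          (ENNReal.rpow_add_le_mul_rpow_add_rpow _ _ hp)).trans ?_
        rw [ENNReal.mul_rpow_of_nonneg _ _ h0, ENNReal.mul_rpow_of_nonneg _ _ h0]
        exact mul_le_mul_right (add_le_add (mul_le_mul_right (ENNReal.le_tsum j) _)
          (mul_le_mul_left (ENNReal.rpow_le_self_of_le_one (ENNReal.ofReal_le_one.2 h1) hp) _)) _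
    _ ≤ _ := by
        rw [lintegral_const_mul' _ _ t1, lintegral_add_left' ((AEMeasurable.tsum m).const_mul _),
          lintegral_const_mul' _ _ t2, lintegral_const_mul' _ _ ENNReal.ofReal_ne_top,
          mul_left_comm, mul_add (ENNReal.ofReal θ), mul_comm (ENNReal.ofReal θ) (2 ^ p)]
        exact mul_le_mul_right (add_le_add_left (mul_le_mul_right k1 _) _) _

theorem mem_of {F : Type} [NormedAddCommGroup F] {μ : Measure (E n)} {u w : E n → F} (hp : 0 < p)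
    (hu : AEStronglyMeasurable u μ) (hw : MemLp w (ENNReal.ofReal p) μ)
    (h : ∫⁻ x, ‖u x - w x‖ₑ ^ p ∂μ < ⊤) : MemLp u (ENNReal.ofReal p) μ := by
  have k : MemLp (u - w) (ENNReal.ofReal p) μ := ⟨hu.sub hw.1, by
    rwa [eLpNorm_lt_top_iff_lintegral_rpow_enorm_lt_top (ENNReal.ofReal_pos.2 hp).ne'
      ENNReal.ofReal_ne_top, ENNReal.toReal_ofReal hp.le]⟩
  simpa using k.add hw

theorem approx_of_loc (hΩ : IsDomain Ω) (hΛ : IsDomain Λ) (hp : 1 ≤ p) (hH : Homeo Ω Λ f)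
    (hS : Sobolev Ω p f D) (hf : ∀ z ∈ Ω, Loc f z) : Approximable Ω Λ p f D := by
  have h0 : 0 < p := zero_lt_one.trans_le hp
  have hv : volume Ω ≠ ⊤ := hΩ.2.2.measure_lt_top.ne
  haveI : IsFiniteMeasure (volume.restrict Ω) := isFiniteMeasure_restrict.2 hv
  have fin := lintegral_rpow_enorm_lt_top_of_eLpNorm_lt_top (ENNReal.ofReal_pos.2 h0).ne'
    ENNReal.ofReal_ne_top (hS.2.1.norm.add (memLp_const (2 : ℝ))).2
  rw [ENNReal.toReal_ofReal h0.le] at fin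
  obtain ⟨C, hC⟩ : ∃ C, C = (2 : ℝ≥0∞) ^ (p - 1) * (2 ^ p + ∫⁻ x in Ω, ‖‖D x‖ + 2‖ₑ ^ p) :=
    ⟨_, rfl⟩
  have hC' : C ≠ ⊤ := hC ▸ ENNReal.mul_ne_top
    (ENNReal.rpow_ne_top_of_nonneg (sub_nonneg.2 hp) ENNReal.ofNat_ne_top) (ENNReal.add_ne_top.2
      ⟨ENNReal.rpow_ne_top_of_nonneg h0.le ENNReal.ofNat_ne_top, fin.ne⟩)
  obtain ⟨η, e1, e2⟩ := exists_gauge hΩ hΛ hH
  have key : ∀ θ : ℝ, 0 < θ → θ ≤ 1 → ∃ g, (Diffeo Ω Λ g ∧ Sobolev Ω p g (fderiv ℝ g)) ∧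
      ∫⁻ x in Ω, (‖g x - f x‖ₑ ^ p + ‖fderiv ℝ g x - D x‖ₑ ^ p) ≤
        ENNReal.ofReal θ * (volume Ω + C) := fun θ hθ h1 => by
    obtain ⟨g, A, g1, g2, g3⟩ := exists_glue (η := fun x => min (η x) θ) hΩ hp hS hH.2.1 hf
      (fun K hK hK' => by
        obtain ⟨c, hc, h⟩ := e1 K hK hK'
        exact ⟨_, lt_min hc hθ, fun x hx => min_le_min_right θ (h x hx)⟩) hθ h1
    have b1 := err_bound hΩ.1 hp hθ h1 g2 fun x hx => (g3 x hx).2.2
    rw [← hC] at b1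
    have b2 : ∀ x ∈ Ω, ‖g x - f x‖ ≤ θ := fun x hx => (g3 x hx).1.trans (min_le_right _ _)
    have m1 := g1.continuousOn.aestronglyMeasurable (μ := volume) hΩ.1.measurableSet
    have m2 := (g1.continuousOn_fderiv_of_isOpen hΩ.1 (by simp)).aestronglyMeasurable
      (μ := volume) hΩ.1.measurableSet
    refine ⟨g, ⟨e2 g g1 (fun x hx => (g3 x hx).1.trans (min_le_left _ _)) fun x hx => (g3 x hx).2.1,
      ?_, ?_, fun v φ k1 k2 k3 => weak_smooth hΩ.1 g1 k1 k2 k3 v⟩, ?_⟩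
    · simpa [InLp] using (MemLp.of_bound (m1.sub hS.1.1) θ
        ((ae_restrict_iff' hΩ.1.measurableSet).2 (.of_forall b2))).add hS.1
    · exact mem_of (F := E n →L[ℝ] E n) h0 m2 hS.2.1
        (b1.trans_lt (ENNReal.mul_lt_top ENNReal.ofReal_lt_top hC'.lt_top))
    · refine (setLIntegral_mono' (g := fun x => ENNReal.ofReal θ + ‖fderiv ℝ g x - D x‖ₑ ^ p)
        hΩ.1.measurableSet fun x hx => add_le_add_left ?_ _).trans ?_
      · rw [← ofReal_norm_eq_enorm]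
        exact (ENNReal.rpow_le_rpow (ENNReal.ofReal_le_ofReal (b2 x hx)) h0.le).trans
          (ENNReal.rpow_le_self_of_le_one (ENNReal.ofReal_le_one.2 h1) hp)
      · rw [lintegral_add_left measurable_const, setLIntegral_const, mul_add]
        exact add_le_add_right b1 _
  choose g g1 g2 using fun j : ℕ => key (1 / ((j : ℝ) + 1)) Nat.one_div_pos_of_nat
    (div_le_one_of_le₀ (le_add_of_nonneg_left j.cast_nonneg) (by positivity))
  refine ⟨g, g1, tendsto_of_tendsto_of_tendsto_of_le_of_le tendsto_const_nhds ?_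
    (fun _ => zero_le) g2⟩
  simpa using ENNReal.Tendsto.mul_const (ENNReal.tendsto_ofReal
    (tendsto_one_div_add_atTop_nhds_zero_nat (𝕜 := ℝ))) (Or.inr (ENNReal.add_ne_top.2 ⟨hv, hC'⟩))

end Vale.Agent.P073
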