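import Vale.Agent.P073.Stmt

/-! Monotone vector fields, admissible gauges and the topological step. -/

open MeasureTheory Set Filter Metric
open scoped ContDiff Topology ENNReal RealInnerProductSpace

namespace Vale.Agent.P073

variable {n : ℕ} {Ω Λ s t : Set (E n)} {f g G : E n → E n} {c : ℝ}

/-- strongly monotone with modulus `c` on `s` -/
def Mon (c : ℝ) (G : E n → E n) (s : Set (E n)) : Prop :=
  ∀ x ∈ s, ∀ y ∈ s, c * ‖x - y‖ ^ 2 ≤ ⟪G x - G y, x - y⟫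

/-- bounded below by a positive constant on every compact part of `Ω` -/
def Adm (Ω : Set (E n)) (η : E n → ℝ) : Prop :=
  ∀ K, IsCompact K → K ⊆ Ω → ∃ c > 0, ∀ x ∈ K, c ≤ η x

theorem Mon.mono (h : Mon c G s) (ht : t ⊆ s) : Mon c G t := fun x hx y hy =>
  h x (ht hx) y (ht hy)

theorem Mon.anti (h : Mon c G s) {c' : ℝ} (hc : c' ≤ c) : Mon c' G s := fun x hx y hy =>
  (mul_le_mul_of_nonneg_right hc (sq_nonneg _)).trans (h x hx y hy)

theorem Mon.congr {G' : E n → E n} (h : Mon c G s) (e : ∀ x ∈ s, G' x = G x) : Mon c G' s :=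
  fun x hx y hy => by rw [e x hx, e y hy]; exact h x hx y hy

theorem mon_of_loc (hs : Convex ℝ s) (hc : ContinuousOn G s)
    (h : ∀ x ∈ s, ∃ t ∈ 𝓝 x, Mon 0 G t) : Mon 0 G s := by
  intro y hy x hx
  have hl : ∀ a ∈ Icc (0 : ℝ) 1, x + a • (y - x) ∈ s := fun a ha => hs.add_smul_sub_mem hx hy ha
  have hγ : Continuous fun a : ℝ => x + a • (y - x) := by fun_prop
  have h1 : ContinuousOn (fun a : ℝ => ⟪G (x + a • (y - x)) - G x, y - x⟫) (Icc 0 1) :=
    ((hc.comp hγ.continuousOn hl).sub continuousOn_const).inner continuousOn_const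
  have h2 := IsClosed.mem_of_ge_of_forall_exists_gt (a := (0 : ℝ)) (b := 1)
    (s := {a : ℝ | 0 ≤ ⟪G (x + a • (y - x)) - G x, y - x⟫})
    (by rw [inter_comm]; exact h1.preimage_isClosed_of_isClosed isClosed_Icc isClosed_Ici)
    (by simp) zero_le_one (by
      rintro a ⟨ha, ha'⟩
      obtain ⟨t, ht, hm⟩ := h _ (hl a ⟨ha'.1, ha'.2.le⟩)
      have h3 : ∀ᶠ b in 𝓝[>] a, x + b • (y - x) ∈ t :=
        mem_nhdsWithin_of_mem_nhds (hγ.continuousAt.preimage_mem_nhds ht)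
      obtain ⟨b, hb, hb'⟩ := (h3.and (Ioc_mem_nhdsGT ha'.2)).exists
      refine ⟨b, ?_, hb'⟩
      have h4 := hm _ hb _ (mem_of_mem_nhds ht)
      have h5 : x + b • (y - x) - (x + a • (y - x)) = (b - a) • (y - x) := by
        rw [sub_smul]; abel
      rw [h5, inner_smul_right, zero_mul, inner_sub_left] at h4
      have h6 := nonneg_of_mul_nonneg_right h4 (sub_pos.2 hb'.1)
      simp only [mem_setOf_eq, inner_sub_left] at ha ⊢
      linarith)
  simpa using h2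

theorem Mon.le_fderiv {z : E n} {D : E n →L[ℝ] E n} (h : Mon c G s) (hs : s ∈ 𝓝 z)
    (hD : HasFDerivAt G D z) (v : E n) : c * ‖v‖ ^ 2 ≤ ⟪D v, v⟫ := by
  have hγ : HasDerivAt (fun a : ℝ => z + a • v) v 0 := by
    simpa using ((hasDerivAt_id (0 : ℝ)).smul_const v).const_add z
  have h1 : HasDerivAt (fun a : ℝ => ⟪G (z + a • v), v⟫) ⟪D v, v⟫ 0 := by
    have h2 : HasFDerivAt G D (z + (0 : ℝ) • v) := by simpa using hD
    simpa using (h2.comp_hasDerivAt (0 : ℝ) hγ).inner ℝ (hasDerivAt_const (0 : ℝ) v)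
  refine ge_of_tendsto h1.tendsto_slope_zero_right ?_
  have h3 : ∀ᶠ a : ℝ in 𝓝 0, z + a • v ∈ s :=
    hγ.continuousAt.preimage_mem_nhds (by simpa using hs)
  filter_upwards [mem_nhdsWithin_of_mem_nhds h3, self_mem_nhdsWithin] with a ha ha'
  have h4 := h _ ha _ (mem_of_mem_nhds hs)
  have ha0 : (0 : ℝ) < a := ha'
  rw [add_sub_cancel_left, inner_smul_right, norm_smul, Real.norm_of_nonneg ha0.le,
    inner_sub_left] at h4
  simp only [zero_add, zero_smul, add_zero, smul_eq_mul]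
  rw [inv_mul_eq_div, le_div_iff₀ ha0]
  refine le_of_mul_le_mul_left ?_ ha0
  nlinarith

theorem norm_le_of_symm {S : E n →L[ℝ] E n} (hS : ∀ v w, ⟪S v, w⟫ = ⟪v, S w⟫) {M : ℝ}
    (hM : 0 ≤ M) (h : ∀ v, |⟪S v, v⟫| ≤ M * ‖v‖ ^ 2) : ‖S‖ ≤ M := by
  rw [S.norm_eq_iSup_rayleighQuotient hS]
  refine ciSup_le fun v => ?_
  rw [ContinuousLinearMap.rayleighQuotient, abs_div, abs_pow, abs_norm]
  exact div_le_of_le_mul₀ (sq_nonneg _) hM (h v)

theorem exists_adm (P : E n → ℝ → Prop) (hm : ∀ x a b, P x a → 0 < b → b ≤ a → P x b)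
    (hl : ∀ x ∈ Ω, ∃ a > 0, ∀ᶠ y in 𝓝 x, P y a) :
    ∃ η : E n → ℝ, (∀ x ∈ Ω, P x (η x)) ∧ Adm Ω η := by
  have hb : ∀ x, BddAbove {a | P x a ∧ a ≤ 1} := fun x => ⟨1, fun a ha => ha.2⟩
  have h1 : ∀ x ∈ Ω, ∃ a > 0, ∀ᶠ y in 𝓝 x, a ≤ sSup {a | P y a ∧ a ≤ 1} := fun x hx => by
    obtain ⟨a, ha, h⟩ := hl x hx
    have h2 : 0 < min a 1 := lt_min ha one_pos
    exact ⟨_, h2, h.mono fun y hy =>
      le_csSup (hb y) ⟨hm y a _ hy h2 (min_le_left _ _), min_le_right _ _⟩⟩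
  refine ⟨fun x => sSup {a | P x a ∧ a ≤ 1} / 2, fun x hx => ?_, fun K hK hKΩ => ?_⟩
  · obtain ⟨a, ha, h⟩ := h1 x hx
    have h2 := h.self_of_nhds
    obtain ⟨b, hb1, hb2⟩ := exists_lt_of_lt_csSup (s := {a | P x a ∧ a ≤ 1})
      (Set.nonempty_iff_ne_empty.2 fun e => by rw [e, Real.sSup_empty] at h2; linarith)
      (half_lt_self (ha.trans_le h2))
    exact hm x b _ hb1.1 (by linarith) hb2.le
  · refine hK.induction_on (p := fun K => ∃ c > 0, ∀ x ∈ K, c ≤ sSup {a | P x a ∧ a ≤ 1} / 2)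
      ⟨1, one_pos, by simp⟩ (fun s t hst ⟨c, hc, h⟩ => ⟨c, hc, fun x hx => h x (hst hx)⟩)
      (fun s t ⟨c, hc, h⟩ ⟨c', hc', h'⟩ => ⟨min c c', lt_min hc hc', fun x hx => hx.elim
        (fun k => (min_le_left _ _).trans (h x k)) fun k => (min_le_right _ _).trans (h' x k)⟩)
      fun x hx => ?_
    obtain ⟨a, ha, h⟩ := h1 x (hKΩ hx)
    exact ⟨_, mem_nhdsWithin_of_mem_nhds h, a / 2, half_pos ha, fun y hy => by
      have : a ≤ _ := hy
      linarith⟩

theorem Adm.pos {η : E n → ℝ} (h : Adm Ω η) {x : E n} (hx : x ∈ Ω) : 0 < η x := by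
  obtain ⟨c, hc, h⟩ := h {x} isCompact_singleton (singleton_subset_iff.2 hx)
  exact hc.trans_le (h x rfl)

theorem injOn_of_pos (hs : Convex ℝ s) (hg : ∀ x ∈ s, DifferentiableAt ℝ g x)
    (h : ∀ x ∈ s, ∀ v, v ≠ 0 → 0 < ⟪fderiv ℝ g x v, v⟫) : InjOn g s := by
  intro x hx y hy e
  by_contra hne
  have hv : y - x ≠ 0 := sub_ne_zero.2 (Ne.symm hne)
  have hl : ∀ a ∈ Icc (0 : ℝ) 1, x + a • (y - x) ∈ s := fun a ha => hs.add_smul_sub_mem hx hy ha
  have h1 : ∀ a ∈ Icc (0 : ℝ) 1, HasDerivAt (fun a : ℝ => ⟪g (x + a • (y - x)), y - x⟫)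
      ⟪fderiv ℝ g (x + a • (y - x)) (y - x), y - x⟫ a := fun a ha => by
    have hγ : HasDerivAt (fun a : ℝ => x + a • (y - x)) (y - x) a := by
      simpa using ((hasDerivAt_id a).smul_const (y - x)).const_add x
    simpa using ((hg _ (hl a ha)).hasFDerivAt.comp_hasDerivAt a hγ).inner ℝ
      (hasDerivAt_const a (y - x))
  obtain ⟨a, ha, h2⟩ := exists_hasDerivAt_eq_slope _ _ zero_lt_one
    (fun a ha => (h1 a ha).continuousAt.continuousWithinAt) fun a ha => h1 a (Ioo_subset_Icc_self ha)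
  have h3 := h _ (hl a (Ioo_subset_Icc_self ha)) _ hv
  rw [h2] at h3
  simp [e] at h3

/-- maps close to a homeomorphism with positive derivative are diffeomorphisms -/
theorem exists_gauge (hΩ : IsDomain Ω) (hΛ : IsDomain Λ) (hf : Homeo Ω Λ f) :
    ∃ η : E n → ℝ, Adm Ω η ∧ ∀ g : E n → E n, ContDiffOn ℝ ∞ g Ω →
      (∀ x ∈ Ω, ‖g x - f x‖ ≤ η x) → (∀ x ∈ Ω, ∀ v, v ≠ 0 → 0 < ⟪fderiv ℝ g x v, v⟫) →
      Diffeo Ω Λ g := by
  obtain ⟨hb, hc, h, hi, hh⟩ := hf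
  have hm : MapsTo h Λ Ω := fun y hy => by
    obtain ⟨x, hx, rfl⟩ := hb.surjOn hy
    rw [hi.1 hx]; exact hx
  obtain ⟨η, h1, h2⟩ := exists_adm (Ω := Ω)
    (fun x a => ∃ B, Convex ℝ B ∧ B ⊆ Ω ∧ x ∈ B ∧ ball (f x) (3 * a) ⊆ f '' B)
    (fun x a b ⟨B, k1, k2, k3, k4⟩ _ hba =>
      ⟨B, k1, k2, k3, (ball_subset_ball (by linarith)).trans k4⟩) fun x hx => by
      obtain ⟨ρ, hρ, k1⟩ := Metric.isOpen_iff.1 hΩ.1 x hx
      have k2 : ∀ᶠ y in 𝓝 (f x), y ∈ f '' ball x ρ := by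
        have k3 := (hh.continuousAt (hΛ.1.mem_nhds (hb.mapsTo hx))).preimage_mem_nhds
          (t := ball x ρ) (by rw [hi.1 hx]; exact ball_mem_nhds x hρ)
        filter_upwards [k3, hΛ.1.mem_nhds (hb.mapsTo hx)] with y k4 k5
        exact ⟨h y, k4, hi.2 k5⟩
      obtain ⟨δ, hδ, k3⟩ := Metric.mem_nhds_iff.1 k2
      refine ⟨δ / 6, by positivity, ?_⟩
      filter_upwards [(hc.continuousAt (hΩ.1.mem_nhds hx)).preimage_mem_nhds
        (ball_mem_nhds _ (half_pos hδ)), ball_mem_nhds x hρ] with y k4 k5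
      exact ⟨_, convex_ball x ρ, k1, k5, (ball_subset_ball' (by
        have : dist (f y) (f x) < δ / 2 := k4
        linarith)).trans k3⟩
  refine ⟨η, h2, fun g hg hd hp => ?_⟩
  have hga : ∀ x ∈ Ω, ContDiffAt ℝ ∞ g x := fun x hx => hg.contDiffAt (hΩ.1.mem_nhds hx)
  have hgd : ∀ x ∈ Ω, DifferentiableAt ℝ g x := fun x hx => (hga x hx).differentiableAt (by simp)
  have hbl : ∀ x ∈ Ω, ball (f x) (3 * η x) ⊆ Λ := fun x hx => by
    obtain ⟨B, -, k2, -, k4⟩ := h1 x hx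
    exact k4.trans ((image_mono k2).trans hb.mapsTo.image_subset)
  have hmap : MapsTo g Ω Λ := fun x hx => hbl x hx (by
    rw [mem_ball, dist_eq_norm]; linarith [hd x hx, h2.pos hx])
  have hinj' : ∀ x ∈ Ω, ∀ y ∈ Ω, η y ≤ η x → g x = g y → x = y := fun x hx y hy hle e => by
    obtain ⟨B, k1, k2, k3, k4⟩ := h1 x hx
    obtain ⟨y', k5, k6⟩ := k4 (a := f y) (by
      have k7 := norm_sub_le (g x - f x) (g y - f y)
      rw [e, sub_sub_sub_cancel_left, ← e] at k7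
      rw [mem_ball, dist_eq_norm]
      have := hd y hy
      rw [← e] at this
      linarith [hd x hx, h2.pos hx])
    rw [hb.injOn (k2 k5) hy k6] at k5
    exact injOn_of_pos k1 (fun z hz => hgd z (k2 hz)) (fun z hz => hp z (k2 hz)) k3 k5 e
  have hinj : InjOn g Ω := fun x hx y hy e => (le_total (η y) (η x)).elim
    (fun k => hinj' x hx y hy k e) fun k => (hinj' y hy x hx k e.symm).symm
  have hL : ∀ x ∈ Ω, ∃ L : E n ≃L[ℝ] E n, HasFDerivAt g (L : E n →L[ℝ] E n) x := fun x hx => by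
    have k1 : Function.Injective (fderiv ℝ g x : E n →ₗ[ℝ] E n) := by
      rw [injective_iff_map_eq_zero]
      intro v hv
      by_contra hne
      have := hp x hx v hne
      rw [show fderiv ℝ g x v = 0 from hv, inner_zero_left] at this
      exact lt_irrefl _ this
    refine ⟨(LinearEquiv.ofInjectiveEndo _ k1).toContinuousLinearEquiv, ?_⟩
    exact (hgd x hx).hasFDerivAt.congr_fderiv (by ext v; rfl)
  have hop : IsOpen (g '' Ω) := isOpen_iff_mem_nhds.2 (by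
    rintro _ ⟨x, hx, rfl⟩
    obtain ⟨L, k1⟩ := hL x hx
    rw [← ((hga x hx).hasStrictFDerivAt' k1 (by simp)).map_nhds_eq_of_equiv]
    exact image_mem_map (hΩ.1.mem_nhds hx))
  have hsurj : Λ ⊆ g '' Ω := by
    obtain ⟨x₀, hx₀⟩ := hΩ.2.1.nonempty
    refine hΛ.2.1.isPreconnected.subset_of_closure_inter_subset hop
      ⟨g x₀, hmap hx₀, x₀, hx₀, rfl⟩ ?_
    rintro w ⟨hw, hwΛ⟩
    obtain ⟨δ, hδ, k1⟩ := Metric.isOpen_iff.1 hΛ.1 w hwΛ
    have k2 : {y | ball y (δ / 4) ⊆ Λ} ⊆ Λ := fun y hy => hy (mem_ball_self (by positivity))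
    have k3 : IsCompact {y | ball y (δ / 4) ⊆ Λ} := by
      refine isCompact_of_isClosed_isBounded (isClosed_of_closure_subset fun y hy z hz => ?_)
        (hΛ.2.2.subset k2)
      obtain ⟨y', k4, k5⟩ := mem_closure_iff.1 hy _ isOpen_ball (mem_ball_comm.1 hz)
      exact k5 (mem_ball_comm.1 k4)
    have k4 := k3.image_of_continuousOn (hh.mono k2)
    have k5 : h '' {y | ball y (δ / 4) ⊆ Λ} ⊆ Ω := (image_mono k2).trans hm.image_subset
    have k6 := (k4.image_of_continuousOn (hg.continuousOn.mono k5)).isClosed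
    refine image_mono k5 (closure_minimal (s := ball w (δ / 2) ∩ g '' Ω) ?_ k6
      (isOpen_ball.inter_closure ⟨mem_ball_self (half_pos hδ), hw⟩))
    rintro _ ⟨k7, x, hx, rfl⟩
    refine ⟨x, ⟨f x, ?_, hi.1 hx⟩, rfl⟩
    rcases le_total (η x) (δ / 4) with k8 | k8
    · refine (ball_subset_ball' ?_).trans k1
      have k9 := dist_triangle (f x) (g x) w
      rw [dist_comm (f x) (g x), dist_eq_norm (g x)] at k9
      linarith [hd x hx, mem_ball.1 k7]
    · exact (ball_subset_ball (by linarith)).trans (hbl x hx)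
  have hbij : BijOn g Ω Λ := ⟨hmap, hinj, hsurj⟩
  refine ⟨hbij, hg, Function.invFunOn g Ω, hbij.invOn_invFunOn, fun y hy => ?_⟩
  obtain ⟨x, hx, rfl⟩ := hsurj hy
  obtain ⟨L, k1⟩ := hL x hx
  have k2 := (hga x hx).to_localInverse k1 (by simp)
  refine (k2.congr_of_eventuallyEq ?_).contDiffWithinAt
  have k3 := (hga x hx).hasStrictFDerivAt' k1 (by simp)
  filter_upwards [k3.eventually_right_inverse,
    k3.localInverse_tendsto.eventually (hΩ.1.mem_nhds hx)] with z k4 k5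
  have k6 := hinj.leftInvOn_invFunOn k5
  rw [k4] at k6
  exact k6

end Vale.Agent.P073
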