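import Mathlib

/-! Definitions used in the statement for P073. -/

open MeasureTheory Set Filter
open scoped ContDiff Topology ENNReal RealInnerProductSpace

namespace Vale.Agent.P073

/-- Euclidean space. -/
abbrev E (n : ℕ) : Type := EuclideanSpace ℝ (Fin n)

variable {n : ℕ}

/-- A bounded domain. -/
def IsDomain (Ω : Set (E n)) : Prop := IsOpen Ω ∧ IsConnected Ω ∧ Bornology.IsBounded Ω

/-- `u` lies in `L^p(Ω)`. -/
def InLp {F : Type} [NormedAddCommGroup F] (Ω : Set (E n)) (p : ℝ) (u : E n → F) : Prop :=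
  MemLp u (ENNReal.ofReal p) (volume.restrict Ω)

/-- `w` is the weak derivative of `f` on `Ω` in the direction `v`. -/
def WeakD (Ω : Set (E n)) (f : E n → E n) (v : E n) (w : E n → E n) : Prop :=
  ∀ φ : E n → ℝ, ContDiff ℝ ∞ φ → HasCompactSupport φ → tsupport φ ⊆ Ω →
    ∫ x in Ω, fderiv ℝ φ x v • f x = -∫ x in Ω, φ x • w x

/-- `f` lies in `W^{1,p}(Ω)` and `D` is its weak derivative. -/
def Sobolev (Ω : Set (E n)) (p : ℝ) (f : E n → E n) (D : E n → E n →L[ℝ] E n) : Prop :=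
  InLp Ω p f ∧ InLp Ω p D ∧ ∀ v : E n, WeakD Ω f v fun x => D x v

/-- `f` is a homeomorphism of `Ω` onto `Λ`. -/
def Homeo (Ω Λ : Set (E n)) (f : E n → E n) : Prop :=
  BijOn f Ω Λ ∧ ContinuousOn f Ω ∧ ∃ h : E n → E n, InvOn h f Ω Λ ∧ ContinuousOn h Λ

/-- `g` is a smooth diffeomorphism of `Ω` onto `Λ`. -/
def Diffeo (Ω Λ : Set (E n)) (g : E n → E n) : Prop :=
  BijOn g Ω Λ ∧ ContDiffOn ℝ ∞ g Ω ∧ ∃ h : E n → E n, InvOn h g Ω Λ ∧ ContDiffOn ℝ ∞ h Λ

/-- The power of the distance. -/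
noncomputable def err {F : Type} [NormedAddCommGroup F] (p : ℝ) (a b : F) : ℝ≥0∞ := ‖a - b‖ₑ ^ p

/-- `f`, with weak derivative `D`, is diffeomorphically approximable in `W^{1,p}`. -/
def Approximable (Ω Λ : Set (E n)) (p : ℝ) (f : E n → E n) (D : E n → E n →L[ℝ] E n) : Prop :=
  ∃ g : ℕ → E n → E n, (∀ j, Diffeo Ω Λ (g j) ∧ Sobolev Ω p (g j) (fderiv ℝ (g j))) ∧
    Tendsto (fun j => ∫⁻ x in Ω, (err p (g j x) (f x) + err p (fderiv ℝ (g j) x) (D x))) atTop (𝓝 0)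

/-- `F` is the gradient of a convex function on `B`. -/
def GradOn (B : Set (E n)) (F : E n → E n) : Prop :=
  ∃ u : E n → ℝ, ConvexOn ℝ B u ∧ ∀ y ∈ B, HasGradientAt u (F y) y

/-- `F` minus the gradient of a strictly convex function is monotone on `B`. -/
def DomOn (B : Set (E n)) (F : E n → E n) : Prop :=
  ∃ u : E n → ℝ, StrictConvexOn ℝ B u ∧ ContDiffOn ℝ 1 u B ∧
    ∀ y ∈ B, ∀ z ∈ B, ⟪gradient u y - gradient u z, y - z⟫ ≤ ⟪F y - F z, y - z⟫

end Vale.Agent.P073
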