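import Vale.Agent.P073.Bump

/-! A small gradient field which makes the map locally strongly monotone everywhere. -/

open MeasureTheory Set Filter Metric
open scoped ContDiff Topology ENNReal RealInnerProductSpace

namespace Vale.Agent.P073

variable {n : ℕ} {Ω s : Set (E n)} {f G : E n → E n} {c θ : ℝ} {η : E n → ℝ}

theorem Mon.smul (h : Mon c G s) {a : ℝ} (ha : 0 ≤ a) : Mon (a * c) (fun y => a • G y) s :=
  fun x hx y hy => by
    rw [← smul_sub, real_inner_smul_left, mul_assoc]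
    exact mul_le_mul_of_nonneg_left (h x hx y hy) ha

theorem mon_sum {c' : ℕ → ℝ} {G' : ℕ → E n → E n} (h : ∀ k, Mon (c' k) (G' k) s) (hc : HasSum c' c)
    (hG : ∀ y, HasSum (fun k => G' k y) (G y)) : Mon c G s := fun x hx y hy => by
  have k := (innerSL ℝ (x - y)).hasSum ((hG x).sub (hG y))
  simp only [innerSL_apply_apply, real_inner_comm _ (x - y)] at k
  exact hasSum_le (fun k => h k x hx y hy) (hc.mul_right _) k

theorem bump' (hΩ : IsOpen Ω) (hf : ∀ z ∈ Ω, Loc f z) (hc : ContinuousOn f Ω) (hη : Adm Ω η)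
    {x₀ : E n} (hx : x₀ ∈ Ω) : ∃ t ∈ 𝓝 x₀, ∀ e > 0, ∃ (w : E n → ℝ) (h : E n → E n) (a μ : ℝ),
      0 < a ∧ a ≤ e ∧ 0 < μ ∧ (∀ y, HasFDerivAt w (innerSL ℝ (h y)) y) ∧ Continuous h ∧
      (∀ y ∉ Ω, w y = 0) ∧ (∀ y, ‖w y‖ ≤ e ∧ ‖h y‖ ≤ e) ∧ (∀ y ∈ Ω, ‖h y‖ ≤ e * η y) ∧
      (∀ z r, ball z r ⊆ Ω → Mon 0 (fun y => a • f y + h y) (ball z r)) ∧
      Mon μ (fun y => a • f y + h y) t ∧ Mon (-e) (fun y => -h y) univ := by
  obtain ⟨w, h, K, C, hK, hKΩ, hC, h1, h2, h3, h4, ⟨μ, hμ, t, ht, h5⟩, h6⟩ := bump hΩ hf hx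
  refine ⟨t, ht, fun e he => ?_⟩
  have wc : Continuous w := continuous_iff_continuousAt.2 fun y => (h1 y).continuousAt
  obtain ⟨B, hB⟩ := hK.exists_bound_of_continuousOn (wc.norm.add h2.norm).continuousOn
  obtain ⟨m, hm, hm'⟩ := hη K hK hKΩ
  obtain ⟨a, ha, a1, a2, a3, a4⟩ : ∃ a > 0, a ≤ e ∧ a * C ≤ e ∧ a * |B| ≤ e ∧ a * |B| ≤ e * m := by
    have k : ∀ x y : ℝ, 0 < y → ∀ᶠ a in 𝓝[>] (0 : ℝ), a * x ≤ y := fun x y hy =>
      mem_nhdsWithin_of_mem_nhds ((continuous_mul_const x).continuousAt.eventually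
        (ge_mem_nhds (by simpa using hy)))
    obtain ⟨a, k1, k2, k3, k4, k5⟩ := ((eventually_mem_nhdsWithin (a := (0 : ℝ)) (s := Ioi 0)).and
      ((k 1 e he).and ((k C e he).and ((k |B| e he).and (k |B| _ (mul_pos he hm)))))).exists
    exact ⟨a, k1, by simpa using k2, k3, k4, k5⟩
  have b1 : ∀ y ∈ K, ‖a • w y‖ ≤ a * |B| ∧ ‖a • h y‖ ≤ a * |B| := fun y hy => by
    have k1 := (le_abs_self _).trans ((hB y hy).trans (le_abs_self B))
    simp only [Pi.add_apply] at k1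
    rw [norm_smul, norm_smul, Real.norm_of_nonneg ha.le]
    exact ⟨mul_le_mul_of_nonneg_left (by linarith [norm_nonneg (h y)]) ha.le,
      mul_le_mul_of_nonneg_left (by linarith [norm_nonneg (w y)]) ha.le⟩
  refine ⟨fun y => a • w y, fun y => a • h y, a, a * μ, ha, a1, mul_pos ha hμ, fun y => ?_,
    h2.const_smul a, fun y hy => by simp [(h3 y fun k => hy (hKΩ k)).1], fun y => ?_,
    fun y hy => ?_, fun z r hz => ?_, (h5.smul ha.le).congr fun y _ => (smul_add _ _ _).symm,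
    fun x _ y _ => ?_⟩
  · rw [map_smul]
    exact (h1 y).fun_const_smul a
  · by_cases hy : y ∈ K
    · exact ⟨(b1 y hy).1.trans a3, (b1 y hy).2.trans a3⟩
    · simp [h3 y hy, he.le]
  · by_cases k : y ∈ K
    · exact ((b1 y k).2.trans a4).trans (mul_le_mul_of_nonneg_left (hm' y k) he.le)
    · simpa [h3 y k] using (mul_pos he (hη.pos hy)).le
  · exact (((mon_of_loc (convex_ball z r) ((hc.mono hz).add h2.continuousOn)
      fun y hy => h4 y (hz hy)).smul ha.le).anti (mul_zero a).ge).congr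
        fun y _ => (smul_add _ _ _).symm
  · have k := h6 x trivial y trivial
    rw [sub_sub_sub_comm, ← smul_sub, inner_sub_left, real_inner_smul_left,
      real_inner_self_eq_norm_sq] at k
    rw [neg_sub_neg, ← smul_sub, real_inner_smul_left, ← neg_sub (h x), inner_neg_left]
    nlinarith [mul_le_mul_of_nonneg_right a2 (sq_nonneg ‖x - y‖)]

theorem exists_field (hΩ : IsDomain Ω) (hf : ∀ z ∈ Ω, Loc f z) (hc : ContinuousOn f Ω)
    (hη : Adm Ω η) (hθ : 0 < θ) (h1 : θ ≤ 1) : ∃ (W : E n → ℝ) (H : E n → E n),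
      (∀ y, HasFDerivAt W (innerSL ℝ (H y)) y) ∧ HasCompactSupport W ∧ Continuous H ∧
      (∀ y ∈ Ω, ‖H y‖ ≤ η y) ∧
      (∀ z r, ball z r ⊆ Ω → Mon 0 (fun y => θ • f y + H y) (ball z r)) ∧
      Mon (-θ) (fun y => -H y) univ ∧
      ∀ z ∈ Ω, ∃ μ > 0, ∃ t ∈ 𝓝 z, Mon μ (fun y => f y + H y) t := by
  choose! t ht hb using fun x (hx : x ∈ Ω) => bump' hΩ.1 hf hc hη hx
  obtain ⟨S, hS, hS', hcov⟩ := TopologicalSpace.countable_cover_nhdsWithin
    (f := fun x => interior (t x)) (s := Ω)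
    fun x hx => mem_nhdsWithin_of_mem_nhds (interior_mem_nhds.2 (ht x hx))
  obtain ⟨x, rfl⟩ := hS'.exists_eq_range (by
    obtain ⟨z, hz⟩ := hΩ.2.1.nonempty
    obtain ⟨y, hy, -⟩ := mem_iUnion₂.1 (hcov hz)
    exact ⟨y, hy⟩)
  have he := hasSum_geometric_two' θ
  choose w h a μ a0 a1 μ0 b1 b2 b3 b4 b5 b6 b7 b8 using fun k : ℕ =>
    hb (x k) (hS (mem_range_self k)) (θ / 2 / 2 ^ k) (by positivity)
  have sh : ∀ y, HasSum (fun k => h k y) (∑' k, h k y) := fun y =>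
    (he.summable.of_norm_bounded fun k => (b4 k y).2).hasSum
  have sa : Summable a := he.summable.of_nonneg_of_le (fun k => (a0 k).le) a1
  have sa' : ∑' k, a k ≤ θ := hasSum_le a1 sa.hasSum he
  have key : ∀ z r, ball z r ⊆ Ω → ∀ (c' : ℕ → ℝ) c b, HasSum c' c → θ ≤ b →
      (∀ k, Mon (c' k) (fun y => a k • f y + h k y) (ball z r)) →
      Mon c (fun y => b • f y + ∑' k, h k y) (ball z r) := fun z r hz c' c b k1 k2 k3 => by
    have k4 := ((mon_of_loc (convex_ball z r) (hc.mono hz) fun y hy => (hf y (hz hy)).mon).smul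
      (sub_nonneg.2 (sa'.trans k2))).add
      (mon_sum k3 k1 fun y => (sa.hasSum.smul_const (f y)).add (sh y))
    exact (k4.anti (by simp)).congr fun y _ => by rw [sub_smul]; abel
  refine ⟨fun y => ∑' k, w k y, fun y => ∑' k, h k y, fun y => ?_,
    HasCompactSupport.intro hΩ.2.2.isCompact_closure fun y hy => by
      simp [b3 _ y fun k => hy (subset_closure k)],
    continuous_tsum b2 he.summable fun k y => (b4 k y).2, fun y hy => ?_,
    fun z r hz => key z r hz _ _ _ hasSum_zero le_rfl fun k => b6 k z r hz,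
    mon_sum b8 he.neg fun y => (sh y).neg, fun z hz => ?_⟩
  · rw [((innerSL ℝ (E := E n)).hasSum (sh y)).tsum_eq.symm]
    exact hasFDerivAt_tsum he.summable b1
      (fun k y => (innerSL_apply_norm ℝ _).trans_le (b4 k y).2)
      (he.summable.of_norm_bounded fun k => (b4 k y).1) y
  · exact ((sh y).norm_le_of_bounded (he.mul_right (η y)) fun k => b5 k y hy).trans
      (mul_le_of_le_one_left (hη.pos hy).le h1)
  · obtain ⟨_, ⟨k, rfl⟩, hk⟩ := mem_iUnion₂.1 (hcov hz)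
    obtain ⟨r, hr, hr'⟩ := Metric.mem_nhds_iff.1
      (inter_mem (hΩ.1.mem_nhds hz) (mem_interior_iff_mem_nhds.1 hk))
    refine ⟨μ k, μ0 k, _, ball_mem_nhds z hr, (key z r (hr'.trans inter_subset_left) _ _ 1
      (hasSum_ite_eq k (μ k)) h1 fun j => ?_).congr fun y _ => by rw [one_smul]⟩
    split_ifs with hj
    · subst hj
      exact (b7 j).mono (hr'.trans inter_subset_right)
    · exact b6 j z r (hr'.trans inter_subset_left)

end Vale.Agent.P073
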